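import Vale.Agent.P111.QL.Avg
import Mathlib.Analysis.SpecialFunctions.Log.Base

/-! Finite cotype from the growth of Rademacher averages of unit vectors. -/

namespace Vale.Agent.P111.R2.H560.TS

open Vale.Agent.P111 Vale.Agent.P111.QL
open Finset

/-- The square average of a Rademacher sum. -/
noncomputable def rsq {ι E : Type*} [Fintype ι] [DecidableEq ι] [NormedAddCommGroup E]
    [NormedSpace ℝ E] (y : ι → E) : ℝ :=
  avg fun ε : ι → ℤˣ => ‖∑ i, sg (ε i) • y i‖ ^ 2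

theorem avg_comm {Ω Ω' E : Type*} [Fintype Ω] [Fintype Ω'] [AddCommGroup E] [Module ℝ E]
    (f : Ω → Ω' → E) :
    (avg fun ω => avg fun ω' => f ω ω') = avg fun ω' => avg fun ω => f ω ω' := by
  simp only [avg, Finset.smul_sum]
  rw [Finset.sum_comm]
  refine Finset.sum_congr rfl fun _ _ => Finset.sum_congr rfl fun _ _ => smul_comm _ _ _

theorem avg_cube_comp {ι κ : Type*} [Fintype ι] [Fintype κ] [DecidableEq ι] [DecidableEq κ]
    {E : Type*} [AddCommGroup E] [Module ℝ E] (e : ι → κ) (he : Function.Injective e)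
    (F : (ι → ℤˣ) → E) : avg (fun δ : κ → ℤˣ => F (fun i => δ (e i))) = avg F := by
  have h1 : ∀ η : ι → ℤˣ, avg (fun δ : κ → ℤˣ => F (fun i => δ (e i))) =
      avg (fun δ : κ → ℤˣ => F ((fun i => δ (e i)) * η)) := by
    intro η
    rw [← avg_comp_equiv (Equiv.mulRight (Function.extend e η 1))
      (fun δ : κ → ℤˣ => F (fun i => δ (e i)))]
    refine avg_congr fun δ => ?_
    congr 1
    funext i
    simp [he.extend_apply]
  have h2 : avg (fun δ : κ → ℤˣ => F (fun i => δ (e i))) =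
      avg fun η : ι → ℤˣ => avg (fun δ : κ → ℤˣ => F ((fun i => δ (e i)) * η)) := by
    rw [← avg_congr h1, avg_const]
  rw [h2, avg_comm]
  have h3 : ∀ δ : κ → ℤˣ, avg (fun η : ι → ℤˣ => F ((fun i => δ (e i)) * η)) = avg F := fun δ =>
    avg_comp_equiv (Equiv.mulLeft (fun i => δ (e i))) F
  rw [avg_congr h3, avg_const]

section

variable {ι κ : Type*} [Fintype ι] [Fintype κ] [DecidableEq ι] [DecidableEq κ]
  {E F : Type*} [NormedAddCommGroup E] [NormedSpace ℝ E] [NormedAddCommGroup F] [NormedSpace ℝ F]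

theorem rsq_nonneg (y : ι → E) : 0 ≤ rsq y := avg_nonneg fun _ => by positivity

theorem norm_sq_le_rsq (y : ι → E) (i : ι) : ‖y i‖ ^ 2 ≤ rsq y := norm_sq_le_avg y i

theorem rsq_comp_le (e : ι → κ) (he : Function.Injective e) (y : κ → E) :
    rsq (fun i => y (e i)) ≤ rsq y := by
  have h := avg_sum_subset_le y (Finset.univ.map ⟨e, he⟩)
  refine le_trans (le_of_eq ?_) h
  unfold rsq
  rw [← avg_cube_comp e he]
  refine avg_congr fun δ => ?_
  rw [Finset.sum_map]
  rfl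

theorem rsq_equiv (e : ι ≃ κ) (y : κ → E) : rsq (fun i => y (e i)) = rsq y := by
  refine le_antisymm (rsq_comp_le e e.injective y) ?_
  have h := rsq_comp_le e.symm e.symm.injective (fun i => y (e i))
  simpa using h

theorem rsq_map_le {L : ℝ} (T : E → F) (hT : ∀ (c : ι → ℝ) (y : ι → E),
    ‖∑ i, c i • T (y i)‖ ≤ L * ‖∑ i, c i • y i‖) (y : ι → E) :
    rsq (fun i => T (y i)) ≤ L ^ 2 * rsq y := by
  unfold rsq
  rw [← avg_mul_left]
  refine avg_mono fun ε => ?_
  rw [← mul_pow]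
  exact pow_le_pow_left₀ (norm_nonneg _) (hT _ y) 2

theorem rsq_smul (c : ℝ) (y : ι → E) : rsq (fun i => c • y i) = c ^ 2 * rsq y := by
  unfold rsq
  rw [← avg_mul_left]
  refine avg_congr fun ε => ?_
  have h : ∑ i, sg (ε i) • c • y i = c • ∑ i, sg (ε i) • y i := by
    rw [Finset.smul_sum]
    exact Finset.sum_congr rfl fun i _ => smul_comm _ _ _
  rw [h, norm_smul, mul_pow, Real.norm_eq_abs, sq_abs]

theorem rsq_le_card {δ : ℝ} (y : ι → E) (hy : ∀ i, ‖y i‖ ≤ δ) :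
    rsq y ≤ (Fintype.card ι * δ) ^ 2 := by
  unfold rsq
  refine avg_le_const fun ε => ?_
  refine pow_le_pow_left₀ (norm_nonneg _) ?_ 2
  refine (norm_sum_le _ _).trans ?_
  have h : ∀ i ∈ (Finset.univ : Finset ι), ‖sg (ε i) • y i‖ ≤ δ := fun i _ => by
    rw [norm_sg_smul]; exact hy i
  refine (Finset.sum_le_sum h).trans (le_of_eq ?_)
  simp

theorem rsq_add_le (y z : ι → E) : rsq (fun i => y i + z i) ≤ 2 * rsq y + 2 * rsq z := by
  unfold rsq
  rw [← avg_mul_left, ← avg_mul_left, ← avg_add]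
  refine avg_mono fun ε => ?_
  have h : ∑ i, sg (ε i) • (y i + z i) = ∑ i, sg (ε i) • y i + ∑ i, sg (ε i) • z i := by
    rw [← Finset.sum_add_distrib]
    exact Finset.sum_congr rfl fun i _ => smul_add _ _ _
  rw [h]
  have h2 := norm_add_le (∑ i, sg (ε i) • y i) (∑ i, sg (ε i) • z i)
  have h3 : ‖∑ i, sg (ε i) • y i + ∑ i, sg (ε i) • z i‖ ^ 2 ≤
      (‖∑ i, sg (ε i) • y i‖ + ‖∑ i, sg (ε i) • z i‖) ^ 2 :=
    pow_le_pow_left₀ (norm_nonneg _) h2 2
  nlinarith [sq_nonneg (‖∑ i, sg (ε i) • y i‖ - ‖∑ i, sg (ε i) • z i‖)]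

end

/-- `a · (mean of ‖y_i‖²) ≤ rsq y` for all families indexed by `ι`. -/
def Mean (a : ℝ) (ι : Type*) [Fintype ι] [DecidableEq ι] (E : Type*) [NormedAddCommGroup E]
    [NormedSpace ℝ E] : Prop :=
  ∀ y : ι → E, a * ∑ i, ‖y i‖ ^ 2 ≤ Fintype.card ι * rsq y

section

variable {ι κ : Type*} [Fintype ι] [Fintype κ] [DecidableEq ι] [DecidableEq κ]
  {E : Type*} [NormedAddCommGroup E] [NormedSpace ℝ E]

theorem Mean.equiv {a : ℝ} (h : Mean a ι E) (e : ι ≃ κ) : Mean a κ E := by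
  intro y
  have h1 := h (fun i => y (e i))
  rw [rsq_equiv, Fintype.card_congr e, e.sum_comp (fun j => ‖y j‖ ^ 2)] at h1
  exact h1

theorem Mean.prod {a b : ℝ} (ha0 : 0 ≤ a) (hb : Mean b κ E) (ha : Mean a ι E) :
    Mean (a * b) (ι × κ) E := by
  intro y
  set z : (ι × κ → ℤˣ) → ι → E := fun ε i => ∑ j, sg (ε (i, j)) • y (i, j) with hz
  have h1 : rsq y = avg fun ε : ι × κ → ℤˣ => rsq (z ε) := by
    have e1 : ∀ θ : ι → ℤˣ, (avg fun ε : ι × κ → ℤˣ => ‖∑ i, sg (θ i) • z ε i‖ ^ 2) = rsq y := by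
      intro θ
      unfold rsq
      rw [← avg_comp_equiv (Equiv.mulLeft (fun p : ι × κ => θ p.1))
        (fun ε : ι × κ → ℤˣ => ‖∑ p, sg (ε p) • y p‖ ^ 2)]
      refine avg_congr fun ε => ?_
      congr 2
      rw [Fintype.sum_prod_type]
      refine Finset.sum_congr rfl fun i _ => ?_
      rw [hz, Finset.smul_sum]
      refine Finset.sum_congr rfl fun j _ => ?_
      rw [smul_smul, ← sg_mul]
      rfl
    unfold rsq at e1 ⊢
    rw [avg_comm, avg_congr e1, avg_const]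
  have h2 : ∀ i, (avg fun ε : ι × κ → ℤˣ => ‖z ε i‖ ^ 2) = rsq (fun j => y (i, j)) := by
    intro i
    exact avg_cube_comp (fun j : κ => (i, j)) (fun j j' h => (Prod.ext_iff.1 h).2)
      (fun δ : κ → ℤˣ => ‖∑ j, sg (δ j) • y (i, j)‖ ^ 2)
  have h3 : a * ∑ i, rsq (fun j => y (i, j)) ≤ Fintype.card ι * rsq y := by
    rw [h1, ← avg_mul_left]
    have e2 : a * ∑ i, rsq (fun j => y (i, j)) =
        avg fun ε : ι × κ → ℤˣ => a * ∑ i, ‖z ε i‖ ^ 2 := by
      rw [avg_mul_left, avg_sum]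
      congr 1
      exact Finset.sum_congr rfl fun i _ => (h2 i).symm
    rw [e2]
    exact avg_mono fun ε => ha (z ε)
  have h4 : b * ∑ i, ∑ j, ‖y (i, j)‖ ^ 2 ≤ Fintype.card κ * ∑ i, rsq (fun j => y (i, j)) := by
    rw [Finset.mul_sum, Finset.mul_sum]
    exact Finset.sum_le_sum fun i _ => hb fun j => y (i, j)
  rw [Fintype.sum_prod_type, Fintype.card_prod]
  push_cast
  have h5 := mul_le_mul_of_nonneg_left h4 ha0
  have h6 := mul_le_mul_of_nonneg_left h3 (Nat.cast_nonneg (α := ℝ) (Fintype.card κ))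
  calc a * b * ∑ i, ∑ j, ‖y (i, j)‖ ^ 2 = a * (b * ∑ i, ∑ j, ‖y (i, j)‖ ^ 2) := by ring
    _ ≤ a * (Fintype.card κ * ∑ i, rsq (fun j => y (i, j))) := h5
    _ = Fintype.card κ * (a * ∑ i, rsq (fun j => y (i, j))) := by ring
    _ ≤ Fintype.card κ * (Fintype.card ι * rsq y) := h6
    _ = Fintype.card ι * Fintype.card κ * rsq y := by ring

theorem Mean.pow {a : ℝ} (ha0 : 0 ≤ a) {N : ℕ} (h : Mean a (Fin N) E) (k : ℕ) :
    Mean (a ^ k) (Fin (N ^ k)) E := by
  induction k with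
  | zero =>
    intro y
    simp only [pow_zero, one_mul, Fintype.card_fin, Nat.cast_one]
    have e : (∑ i : Fin (N ^ 0), ‖y i‖ ^ 2) = ‖y 0‖ ^ 2 := Fin.sum_univ_one fun i => ‖y i‖ ^ 2
    rw [e]
    exact norm_sq_le_rsq y 0
  | succ k ih =>
    rw [pow_succ, pow_succ]
    exact (Mean.prod (by positivity) h ih).equiv finProdFinEquiv

end

/-- Every family of `N` vectors of norm at least one has square average at least `A`. -/
def Grows (A : ℝ) (N : ℕ) (E : Type*) [NormedAddCommGroup E] [NormedSpace ℝ E] : Prop :=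
  ∀ y : Fin N → E, (∀ i, 1 ≤ ‖y i‖) → A ≤ rsq y

section

variable {E : Type*} [NormedAddCommGroup E] [NormedSpace ℝ E]

theorem exists_embedding {ι : Type*} [DecidableEq ι] (s : Finset ι) {m : ℕ} (h : m ≤ s.card) :
    ∃ e : Fin m → ι, Function.Injective e ∧ ∀ j, e j ∈ s := by
  obtain ⟨t, hts, htc⟩ := Finset.exists_subset_card_eq h
  refine ⟨fun j => (t.equivFinOfCardEq htc).symm j, ?_, fun j => hts ?_⟩
  · intro i j hij
    exact (t.equivFinOfCardEq htc).symm.injective (Subtype.ext hij)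
  · exact ((t.equivFinOfCardEq htc).symm j).2

/-- From unit vectors to arbitrary vectors. -/
theorem Grows.mean {N : ℕ} (h : Grows 8 N E) : Mean 4 (Fin (8 * N)) E := by
  intro y
  set S : ℝ := ∑ i, ‖y i‖ ^ 2 with hS
  have hS0 : 0 ≤ S := Finset.sum_nonneg fun _ _ => by positivity
  rw [Fintype.card_fin]
  rcases hS0.eq_or_lt with h0 | hpos
  · rw [← h0, mul_zero]
    exact mul_nonneg (Nat.cast_nonneg _) (rsq_nonneg y)
  have hN : 0 < N := by
    rcases Nat.eq_zero_or_pos N with rfl | h1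
    · exfalso
      rw [hS] at hpos
      simp at hpos
    · exact h1
  have hNr : (0:ℝ) < N := by exact_mod_cast hN
  push_cast
  set m2 : ℝ := S / (8 * N) with hm2
  have hm2p : 0 < m2 := by positivity
  have hSm : S = m2 * (8 * N) := by rw [hm2]; field_simp
  suffices hmain : 4 * m2 ≤ rsq y by
    rw [hSm]
    nlinarith
  by_cases hbig : ∃ i, 4 * m2 ≤ ‖y i‖ ^ 2
  · obtain ⟨i, hi⟩ := hbig
    exact hi.trans (norm_sq_le_rsq y i)
  push Not at hbig
  set J : Finset (Fin (8 * N)) := Finset.univ.filter fun i => m2 / 2 ≤ ‖y i‖ ^ 2 with hJ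
  have hcard : N ≤ J.card := by
    by_contra hlt
    push Not at hlt
    have h1 : S ≤ J.card * (4 * m2) + (Finset.univ.filter fun i => ¬ m2 / 2 ≤ ‖y i‖ ^ 2).card *
        (m2 / 2) := by
      rw [hS, ← Finset.sum_filter_add_sum_filter_not Finset.univ (fun i => m2 / 2 ≤ ‖y i‖ ^ 2)]
      refine add_le_add ?_ ?_
      · refine (Finset.sum_le_card_nsmul _ _ (4 * m2) fun i _ => (hbig i).le).trans
          (le_of_eq ?_)
        rw [nsmul_eq_mul]
      · refine (Finset.sum_le_card_nsmul _ _ (m2 / 2) fun i hi => ?_).trans (le_of_eq ?_)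
        · have := (Finset.mem_filter.1 hi).2
          push Not at this
          exact this.le
        · rw [nsmul_eq_mul]
    have h2 : ((Finset.univ.filter fun i => ¬ m2 / 2 ≤ ‖y i‖ ^ 2).card : ℝ) ≤ 8 * N := by
      have := Finset.card_le_univ (Finset.univ.filter fun i : Fin (8 * N) => ¬ m2 / 2 ≤ ‖y i‖ ^ 2)
      rw [Fintype.card_fin] at this
      exact_mod_cast this
    have h3 : (J.card : ℝ) < N := by exact_mod_cast hlt
    have h4 : ((Finset.univ.filter fun i => ¬ m2 / 2 ≤ ‖y i‖ ^ 2).card : ℝ) * (m2 / 2) ≤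
        8 * N * (m2 / 2) := mul_le_mul_of_nonneg_right h2 (by positivity)
    have h5 : (J.card : ℝ) * (4 * m2) < N * (4 * m2) := mul_lt_mul_of_pos_right h3 (by positivity)
    rw [hSm] at h1
    linarith
  obtain ⟨e, he, hej⟩ := exists_embedding J hcard
  have hc : 0 < √(2 / m2) := Real.sqrt_pos.2 (by positivity)
  have h1 := h (fun j => √(2 / m2) • y (e j)) (fun j => by
    have h2 : m2 / 2 ≤ ‖y (e j)‖ ^ 2 := (Finset.mem_filter.1 (hej j)).2
    rw [norm_smul, Real.norm_of_nonneg hc.le]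
    have h3 : 1 ≤ (√(2 / m2) * ‖y (e j)‖) ^ 2 := by
      rw [mul_pow, Real.sq_sqrt (by positivity)]
      have : 2 / m2 * (m2 / 2) = 1 := by field_simp
      calc (1:ℝ) = 2 / m2 * (m2 / 2) := this.symm
        _ ≤ 2 / m2 * ‖y (e j)‖ ^ 2 := by gcongr
    exact (one_le_sq_iff₀ (by positivity)).1 h3)
  rw [rsq_smul, Real.sq_sqrt (by positivity)] at h1
  have h2 := rsq_comp_le e he y
  have h3 : 4 * m2 ≤ rsq (fun j => y (e j)) := by
    have : 4 * m2 = m2 / 2 * 8 := by ring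
    rw [this]
    calc m2 / 2 * 8 ≤ m2 / 2 * (2 / m2 * rsq fun j => y (e j)) := by gcongr
      _ = rsq fun j => y (e j) := by field_simp
  exact h3.trans h2

/-- Growth for `n` vectors of norm at least `t`. -/
theorem Mean.lower {N : ℕ} (h : Mean 4 (Fin N) E) {k n : ℕ} (hk : N ^ k ≤ n) (hN : 0 < N)
    {t : ℝ} (ht : 0 ≤ t) (y : Fin n → E) (hy : ∀ i, t ≤ ‖y i‖) : 4 ^ k * t ^ 2 ≤ rsq y := by
  have h1 := Mean.pow (by norm_num) h k (fun j => y (Fin.castLE hk j))
  have h2 := rsq_comp_le (Fin.castLE hk) (Fin.castLE_injective hk) y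
  rw [Fintype.card_fin] at h1
  have h3 : ((N ^ k : ℕ) : ℝ) * t ^ 2 ≤ ∑ j : Fin (N ^ k), ‖y (Fin.castLE hk j)‖ ^ 2 := by
    have h4 : ∀ j ∈ (Finset.univ : Finset (Fin (N ^ k))), t ^ 2 ≤ ‖y (Fin.castLE hk j)‖ ^ 2 :=
      fun j _ => pow_le_pow_left₀ ht (hy _) 2
    have h5 := Finset.card_nsmul_le_sum _ _ _ h4
    rwa [Finset.card_univ, Fintype.card_fin, nsmul_eq_mul] at h5
  have hNk : (0:ℝ) < ((N ^ k : ℕ) : ℝ) := by
    have := pow_pos hN k
    exact_mod_cast this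
  have h6 : ((N ^ k : ℕ) : ℝ) * (4 ^ k * t ^ 2) ≤ ((N ^ k : ℕ) : ℝ) * rsq y := by
    calc ((N ^ k : ℕ) : ℝ) * (4 ^ k * t ^ 2) = 4 ^ k * (((N ^ k : ℕ) : ℝ) * t ^ 2) := by ring
      _ ≤ 4 ^ k * ∑ j : Fin (N ^ k), ‖y (Fin.castLE hk j)‖ ^ 2 := by gcongr
      _ ≤ ((N ^ k : ℕ) : ℝ) * rsq (fun j => y (Fin.castLE hk j)) := h1
      _ ≤ _ := by gcongr
  exact le_of_mul_le_mul_left h6 hNk

/-- Polynomial growth. -/
theorem Mean.lower' {N : ℕ} (h : Mean 4 (Fin N) E) (hN : 1 < N) {n : ℕ} (hn : 0 < n)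
    {t : ℝ} (ht : 0 ≤ t) (y : Fin n → E) (hy : ∀ i, t ≤ ‖y i‖) :
    (n : ℝ) ^ (Real.logb N 4) * t ^ 2 ≤ 4 * rsq y := by
  have h1 := h.lower (Nat.pow_log_le_self N hn.ne') (by omega) ht y hy
  have hNr : (1:ℝ) < N := by exact_mod_cast hN
  have h2 : (n : ℝ) < (N : ℝ) ^ (Nat.log N n + 1) := by
    exact_mod_cast Nat.lt_pow_succ_log_self hN n
  have hb : 0 < Real.logb N 4 := Real.logb_pos hNr (by norm_num)
  have h3 : (n : ℝ) ^ (Real.logb N 4) ≤ 4 ^ (Nat.log N n + 1) := by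
    have h4 := Real.rpow_le_rpow (Nat.cast_nonneg n) h2.le hb.le
    refine h4.trans (le_of_eq ?_)
    rw [← Real.rpow_natCast, ← Real.rpow_mul (by positivity), mul_comm, Real.rpow_mul
      (by positivity), Real.rpow_logb (by positivity) hNr.ne' (by norm_num), Real.rpow_natCast]
  calc (n : ℝ) ^ (Real.logb N 4) * t ^ 2 ≤ 4 ^ (Nat.log N n + 1) * t ^ 2 := by gcongr
    _ = 4 * (4 ^ Nat.log N n * t ^ 2) := by ring
    _ ≤ 4 * rsq y := by gcongr

theorem sum_inv_sq_le (m : ℕ) : ∑ k ∈ Finset.range m, (1 : ℝ) / ((k : ℝ) + 1) ^ 2 ≤ 2 := by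
  have h : ∀ m : ℕ, ∑ k ∈ Finset.range (m + 1), (1 : ℝ) / ((k : ℝ) + 1) ^ 2 ≤
      2 - 1 / ((m : ℝ) + 1) := by
    intro m
    induction m with
    | zero => simp; norm_num
    | succ m ih =>
      rw [Finset.sum_range_succ]
      have h1 : (1 : ℝ) / ((m + 1 : ℕ) + 1) ^ 2 ≤ 1 / (m + 1) - 1 / ((m + 1 : ℕ) + 1) := by
        push_cast
        rw [div_sub_div _ _ (by positivity) (by positivity), div_le_div_iff₀ (by positivity)
          (by positivity)]
        nlinarith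
      linarith
  rcases m with _ | m
  · simp
  · refine (h m).trans ?_
    have : (0:ℝ) ≤ 1 / ((m : ℝ) + 1) := by positivity
    linarith

/-- **Finite cotype from growth.** -/
theorem Mean.cotype {N : ℕ} (h : Mean 4 (Fin N) E) (hN : 1 < N) :
    HasCotype (max 2 (4 / Real.logb N 4)) E := by
  set β : ℝ := Real.logb N 4 with hβ
  have hNr : (1:ℝ) < N := by exact_mod_cast hN
  have hb : 0 < β := Real.logb_pos hNr (by norm_num)
  set q : ℝ := max 2 (4 / β) with hq
  have hq2 : 2 ≤ q := le_max_left _ _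
  have hq0 : 0 < q := by linarith
  have hqb : 2 ≤ β * (q / 2) := by
    have : 4 / β ≤ q := le_max_right _ _
    rw [div_le_iff₀ hb] at this
    linarith
  refine ⟨hq2, 2 * (2 : ℝ) ^ (1 / q), fun n y => ?_⟩
  set R : ℝ := rsq y with hR
  have hR0 : 0 ≤ R := rsq_nonneg y
  have key : ∀ m : ℕ, ∀ s : Finset (Fin n), s.card = m →
      ∑ i ∈ s, ‖y i‖ ^ q ≤ (4 * R) ^ (q / 2) * ∑ k ∈ Finset.range m, (1 : ℝ) / ((k : ℝ) + 1) ^ 2 := by
    intro m
    induction m with
    | zero =>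
      intro s hs
      rw [Finset.card_eq_zero] at hs
      subst hs
      simp
    | succ m ih =>
      intro s hs
      have hne : s.Nonempty := by
        rw [← Finset.card_pos, hs]; omega
      obtain ⟨i0, hi0, hmin⟩ := Finset.exists_min_image s (fun i => ‖y i‖) hne
      have h1 := ih (s.erase i0) (by rw [Finset.card_erase_of_mem hi0, hs]; rfl)
      rw [← Finset.add_sum_erase s _ hi0, Finset.sum_range_succ, mul_add, add_comm]
      refine add_le_add h1 ?_
      -- the smallest vector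
      obtain ⟨e, he, hes⟩ := exists_embedding s (le_of_eq hs.symm)
      have h2 := h.lower' hN (Nat.succ_pos m) (norm_nonneg (y i0)) (fun j => y (e j))
        (fun j => hmin (e j) (hes j))
      rw [← hβ] at h2
      have h3 : rsq (fun j => y (e j)) ≤ R := rsq_comp_le e he y
      have hm1 : (0:ℝ) < ((m + 1 : ℕ) : ℝ) := by positivity
      have h4 : ‖y i0‖ ^ 2 ≤ 4 * R * ((m + 1 : ℕ) : ℝ) ^ (-β) := by
        rw [Real.rpow_neg hm1.le, ← div_eq_mul_inv, le_div_iff₀ (by positivity), mul_comm]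
        linarith
      have h5 : ‖y i0‖ ^ q = (‖y i0‖ ^ 2) ^ (q / 2) := by
        rw [← Real.rpow_natCast, ← Real.rpow_mul (norm_nonneg _)]
        congr 1
        push_cast
        ring
      rw [h5]
      refine (Real.rpow_le_rpow (by positivity) h4 (by positivity)).trans ?_
      rw [Real.mul_rpow (by positivity) (by positivity)]
      refine mul_le_mul_of_nonneg_left ?_ (by positivity)
      rw [← Real.rpow_mul hm1.le]
      have h6 : ((m + 1 : ℕ) : ℝ) ^ (-β * (q / 2)) ≤ ((m + 1 : ℕ) : ℝ) ^ (-2 : ℝ) := by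
        refine Real.rpow_le_rpow_of_exponent_le ?_ (by linarith)
        push_cast
        linarith [(Nat.cast_nonneg m : (0:ℝ) ≤ m)]
      refine h6.trans (le_of_eq ?_)
      rw [Real.rpow_neg hm1.le]
      norm_num
  have h1 := key n Finset.univ (by simp)
  have h2 : ∑ i, ‖y i‖ ^ q ≤ (4 * R) ^ (q / 2) * 2 :=
    h1.trans (mul_le_mul_of_nonneg_left (sum_inv_sq_le n) (by positivity))
  have h3 := Real.rpow_le_rpow (Finset.sum_nonneg fun i _ => by positivity) h2
    (show (0:ℝ) ≤ 1 / q by positivity)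
  refine h3.trans (le_of_eq ?_)
  rw [Real.mul_rpow (by positivity) (by norm_num), ← Real.rpow_mul (by positivity)]
  have e1 : q / 2 * (1 / q) = 1 / 2 := by field_simp
  rw [e1, Real.mul_rpow (by norm_num) hR0]
  have e2 : (4:ℝ) ^ (1 / 2 : ℝ) = 2 := by
    rw [show (4:ℝ) = 2 ^ (2:ℝ) by norm_num, ← Real.rpow_mul (by norm_num)]
    norm_num
  rw [e2]
  have e3 : (avg fun ε : Fin n → ℤˣ => ‖∑ i, sg (ε i) • y i‖ ^ 2) = R := rfl
  rw [e3]
  ring

/-- Growth up to the value `8` implies finite cotype. -/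
theorem Grows.cotype {N : ℕ} (h : Grows 8 N E) : ∃ q, HasCotype q E := by
  rcases Nat.eq_zero_or_pos N with rfl | hN
  · exfalso
    have h1 := h (fun i => i.elim0) (fun i => i.elim0)
    unfold rsq at h1
    simp [avg] at h1
    linarith
  · exact ⟨_, h.mean.cotype (by omega)⟩

end

end Vale.Agent.P111.R2.H560.TS
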