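import Vale.Agent.P111.R2.H351.Defs

/-! Definitions for the theorem on quotients and extensions. -/

namespace Vale.Agent.P111.R2.H560

open Vale.Agent.P111

universe u v w

/-- The bounded operator `J : X → Z` has type `p` for some `p > 1`. -/
def OpHasType {X : Type u} {Z : Type v} [NormedAddCommGroup X] [NormedSpace ℝ X]
    [NormedAddCommGroup Z] [NormedSpace ℝ Z] (J : X →L[ℝ] Z) : Prop :=
  ∃ p C : ℝ, 1 < p ∧ p ≤ 2 ∧ ∀ (n : ℕ) (x : Fin n → X),
    (avg fun ε : Fin n → ℤˣ => ‖∑ i, sg (ε i) • J (x i)‖ ^ 2) ^ (1 / 2 : ℝ) ≤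
      C * (∑ i, ‖x i‖ ^ p) ^ (1 / p)

/-- `Z` is a good target: every bounded operator into `Z` from a Banach space whose dual has
finite cotype has type `p` for some `p > 1`. -/
def GoodTarget (Z : Type u) [NormedAddCommGroup Z] [NormedSpace ℝ Z] : Prop :=
  ∀ (X : Type u) [NormedAddCommGroup X] [NormedSpace ℝ X] [CompleteSpace X] (r : ℝ),
    HasCotype r (X →L[ℝ] ℝ) → ∀ J : X →L[ℝ] Z, OpHasType J

end Vale.Agent.P111.R2.H560
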