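import Vale.Agent.P111.R2.H351.Main
import Vale.Agent.P111.R2.H560.Growth
import Vale.Agent.P111.R2.H560.QDefs

/-! Operators which have type greater than one modulo a subspace of type greater than one. -/

namespace Vale.Agent.P111.R2.H560.TS

open Vale.Agent.P111 Vale.Agent.P111.QL
open Vale.Agent.P111.R2.H351 (nrm2 type_of_level)
open Finset

/-- Splitting `I` into `m` blocks of at most `m` elements. -/
theorem exists_coloring {n m : ℕ} (hm : 0 < m) (I : Finset (Fin n)) (h : I.card ≤ m * m) :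
    ∃ c : Fin n → Fin m, ∀ i, (I.filter fun j => c j = i).card ≤ m := by
  classical
  let e : {j // j ∈ I} ≃ Fin I.card := I.equivFin
  have hlt : ∀ j : {j // j ∈ I}, (e j : ℕ) / m < m := fun j =>
    Nat.div_lt_of_lt_mul ((e j).2.trans_le h)
  refine ⟨fun j => if hj : j ∈ I then ⟨(e ⟨j, hj⟩ : ℕ) / m, hlt _⟩ else ⟨0, hm⟩, fun i => ?_⟩
  let g : Fin n → ℕ := fun j => if hj : j ∈ I then (e ⟨j, hj⟩ : ℕ) % m else 0
  have h1 := Finset.card_le_card_of_injOn (s := I.filter fun j =>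
    (if hj : j ∈ I then (⟨(e ⟨j, hj⟩ : ℕ) / m, hlt _⟩ : Fin m) else ⟨0, hm⟩) = i)
    (t := Finset.range m) g ?_ ?_
  · rwa [Finset.card_range] at h1
  · intro j hj
    have hjI : j ∈ I := (Finset.mem_filter.1 hj).1
    simp only [g, dif_pos hjI, Finset.coe_range, Set.mem_Iio]
    exact Nat.mod_lt _ hm
  · intro j hj k hk hjk
    obtain ⟨hjI, hj2⟩ := Finset.mem_filter.1 hj
    obtain ⟨hkI, hk2⟩ := Finset.mem_filter.1 hk
    simp only [dif_pos hjI] at hj2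
    simp only [dif_pos hkI] at hk2
    simp only [g, dif_pos hjI, dif_pos hkI] at hjk
    have h3 : (e ⟨j, hjI⟩ : ℕ) / m = (e ⟨k, hkI⟩ : ℕ) / m := by
      have := hj2.trans hk2.symm
      exact congrArg Fin.val this
    have h4 : (e ⟨j, hjI⟩ : ℕ) = (e ⟨k, hkI⟩ : ℕ) := by
      rw [← Nat.div_add_mod (e ⟨j, hjI⟩ : ℕ) m, ← Nat.div_add_mod (e ⟨k, hkI⟩ : ℕ) m, h3, hjk]
    have h5 := e.injective (Fin.ext h4)
    exact congrArg Subtype.val h5

/-- Insertion of signs that are constant on blocks. -/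
theorem rsq_blocks {n m : ℕ} {E : Type*} [NormedAddCommGroup E] [NormedSpace ℝ E]
    (c : Fin n → Fin m) (z : Fin n → E) :
    rsq z = avg fun ε : Fin n → ℤˣ =>
      rsq (fun i : Fin m => ∑ j ∈ Finset.univ.filter (fun j => c j = i), sg (ε j) • z j) := by
  have e1 : ∀ θ : Fin m → ℤˣ, (avg fun ε : Fin n → ℤˣ =>
      ‖∑ i, sg (θ i) • ∑ j ∈ Finset.univ.filter (fun j => c j = i), sg (ε j) • z j‖ ^ 2) =
      rsq z := by
    intro θ
    unfold rsq
    rw [← avg_comp_equiv (Equiv.mulLeft (fun j : Fin n => θ (c j)))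
      (fun ε : Fin n → ℤˣ => ‖∑ j, sg (ε j) • z j‖ ^ 2)]
    refine avg_congr fun ε => ?_
    congr 2
    rw [← Finset.sum_fiberwise_of_maps_to (s := Finset.univ) (t := Finset.univ) (g := c)
      (fun _ _ => Finset.mem_univ _)]
    refine Finset.sum_congr rfl fun i _ => ?_
    rw [Finset.smul_sum]
    refine Finset.sum_congr rfl fun j hj => ?_
    rw [← (Finset.mem_filter.1 hj).2, smul_smul, ← sg_mul]
    rfl
  unfold rsq at e1 ⊢
  rw [avg_comm, avg_congr e1, avg_const]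

variable {X Z Q : Type*} [NormedAddCommGroup X] [NormedSpace ℝ X] [NormedAddCommGroup Z]
  [NormedSpace ℝ Z] [NormedAddCommGroup Q] [NormedSpace ℝ Q]

/-- The block estimate. -/
theorem block_bound (J : X →L[ℝ] Z) (q : Z →L[ℝ] Q) {C s T p D : ℝ} (hC0 : 0 ≤ C) (hs : 1 < s)
    (hp : 1 < p)
    (hlift : ∀ z : Z, ∃ w : Z, q w = q z ∧ ‖w‖ ≤ C * ‖q z‖)
    (hR : ∀ (m : ℕ) (y : Fin m → Z), (∀ i, q (y i) = 0) →
      rsq y ≤ T ^ 2 * (∑ i, ‖y i‖ ^ s) ^ (2 / s))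
    (hJ : ∀ (n : ℕ) (x : Fin n → X), rsq (fun i => q (J (x i))) ≤
      D ^ 2 * (∑ i, ‖x i‖ ^ p) ^ (2 / p))
    {n m : ℕ} (c : Fin n → Fin m) (I : Finset (Fin n))
    (hc : ∀ i, (I.filter fun j => c j = i).card ≤ m) (y : Fin n → X) {t : ℝ} (ht : 0 ≤ t)
    (hI : ∀ i, i ∉ I → y i = 0) (hy : ∀ i, ‖y i‖ ≤ t) :
    rsq (fun j => J (y j)) ≤
      2 * (T ^ 2 * (m * ((1 + C * ‖q‖) * (‖J‖ * (m * t))) ^ s) ^ (2 / s)) +
        2 * (m * C ^ 2 * (m * (D ^ 2 * (m * t ^ p) ^ (2 / p)))) := by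
  classical
  have hs0 : 0 < s := by linarith
  have hp0 : 0 < p := by linarith
  set S : (Fin n → ℤˣ) → Fin m → Z := fun ε i =>
    ∑ j ∈ Finset.univ.filter (fun j => c j = i), sg (ε j) • J (y j) with hS
  -- size of the blocks
  have hsum : ∀ i, ∑ j ∈ Finset.univ.filter (fun j => c j = i), ‖y j‖ ≤ m * t := by
    intro i
    have h1 : ∑ j ∈ Finset.univ.filter (fun j => c j = i), ‖y j‖ =
        ∑ j ∈ I.filter (fun j => c j = i), ‖y j‖ := by
      symm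
      refine Finset.sum_subset (Finset.filter_subset_filter _ (Finset.subset_univ _)) ?_
      intro j hj hj'
      have : j ∉ I := fun hjI => hj' (Finset.mem_filter.2 ⟨hjI, (Finset.mem_filter.1 hj).2⟩)
      rw [hI j this, norm_zero]
    rw [h1]
    refine (Finset.sum_le_card_nsmul _ _ t fun j _ => hy j).trans ?_
    rw [nsmul_eq_mul]
    exact mul_le_mul_of_nonneg_right (by exact_mod_cast hc i) ht
  have hSn : ∀ ε i, ‖S ε i‖ ≤ ‖J‖ * (m * t) := by
    intro ε i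
    refine (norm_sum_le _ _).trans ?_
    refine le_trans ?_ (mul_le_mul_of_nonneg_left (hsum i) (norm_nonneg J))
    rw [Finset.mul_sum]
    refine Finset.sum_le_sum fun j _ => ?_
    rw [norm_sg_smul]
    exact J.le_opNorm _
  -- lifting
  choose w hw1 hw2 using hlift
  set W : (Fin n → ℤˣ) → Fin m → Z := fun ε i => w (S ε i) with hW
  have hbound : ∀ ε, rsq (S ε) ≤
      2 * (T ^ 2 * (m * ((1 + C * ‖q‖) * (‖J‖ * (m * t))) ^ s) ^ (2 / s)) +
        2 * (m * C ^ 2 * ∑ i, ‖q (S ε i)‖ ^ 2) := by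
    intro ε
    have a1 := rsq_add_le (fun i => S ε i - W ε i) (fun i => W ε i)
    have a2 : (fun i => S ε i - W ε i + W ε i) = S ε := by
      funext i
      abel
    rw [a2] at a1
    have a3 : rsq (fun i => S ε i - W ε i) ≤
        T ^ 2 * (m * ((1 + C * ‖q‖) * (‖J‖ * (m * t))) ^ s) ^ (2 / s) := by
      refine (hR m (fun i => S ε i - W ε i) fun i => ?_).trans ?_
      · rw [map_sub, hW, hw1, sub_self]
      · refine mul_le_mul_of_nonneg_left ?_ (by positivity)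
        refine Real.rpow_le_rpow (Finset.sum_nonneg fun _ _ => by positivity) ?_ (by positivity)
        have b1 : ∀ i ∈ (Finset.univ : Finset (Fin m)), ‖S ε i - W ε i‖ ^ s ≤
            ((1 + C * ‖q‖) * (‖J‖ * (m * t))) ^ s := by
          intro i _
          refine Real.rpow_le_rpow (norm_nonneg _) ?_ hs0.le
          calc ‖S ε i - W ε i‖ ≤ ‖S ε i‖ + ‖W ε i‖ := norm_sub_le _ _
            _ ≤ ‖S ε i‖ + C * ‖q (S ε i)‖ := by gcongr; exact hw2 _
            _ ≤ ‖S ε i‖ + C * (‖q‖ * ‖S ε i‖) := by gcongr; exact q.le_opNorm _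
            _ = (1 + C * ‖q‖) * ‖S ε i‖ := by ring
            _ ≤ _ := mul_le_mul_of_nonneg_left (hSn ε i) (by positivity)
        refine (Finset.sum_le_card_nsmul _ _ _ b1).trans (le_of_eq ?_)
        rw [nsmul_eq_mul, Finset.card_univ, Fintype.card_fin]
    have a4 : rsq (fun i => W ε i) ≤ m * C ^ 2 * ∑ i, ‖q (S ε i)‖ ^ 2 := by
      unfold rsq
      refine avg_le_const fun θ => ?_
      have b1 : ‖∑ i, sg (θ i) • W ε i‖ ≤ ∑ i, C * ‖q (S ε i)‖ := by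
        refine (norm_sum_le _ _).trans (Finset.sum_le_sum fun i _ => ?_)
        rw [norm_sg_smul]
        exact hw2 _
      have b2 := sq_sum_le_card_mul_sum_sq (s := (Finset.univ : Finset (Fin m)))
        (f := fun i => C * ‖q (S ε i)‖)
      rw [Finset.card_univ, Fintype.card_fin] at b2
      refine (pow_le_pow_left₀ (norm_nonneg _) b1 2).trans (b2.trans (le_of_eq ?_))
      rw [mul_assoc, Finset.mul_sum (a := C ^ 2)]
      congr 1
      exact Finset.sum_congr rfl fun i _ => by ring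
    linarith
  have hqS : ∀ i, (avg fun ε : Fin n → ℤˣ => ‖q (S ε i)‖ ^ 2) ≤
      D ^ 2 * (m * t ^ p) ^ (2 / p) := by
    intro i
    set yi : Fin n → X := fun j => if c j = i then y j else 0 with hyi
    have b1 : ∀ ε : Fin n → ℤˣ, q (S ε i) = ∑ j, sg (ε j) • q (J (yi j)) := by
      intro ε
      rw [hS, map_sum, Finset.sum_filter]
      refine Finset.sum_congr rfl fun j _ => ?_
      rw [hyi]
      split_ifs with h
      · simp [h]
      · simp [h]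
    have b2 : (avg fun ε : Fin n → ℤˣ => ‖q (S ε i)‖ ^ 2) = rsq (fun j => q (J (yi j))) := by
      unfold rsq
      refine avg_congr fun ε => ?_
      rw [b1]
    rw [b2]
    refine (hJ n yi).trans (mul_le_mul_of_nonneg_left ?_ (by positivity))
    refine Real.rpow_le_rpow (Finset.sum_nonneg fun _ _ => by positivity) ?_ (by positivity)
    have b3 : ∑ j, ‖yi j‖ ^ p = ∑ j ∈ I.filter (fun j => c j = i), ‖y j‖ ^ p := by
      symm
      have b4 : ∑ j ∈ I.filter (fun j => c j = i), ‖y j‖ ^ p =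
          ∑ j ∈ I.filter (fun j => c j = i), ‖yi j‖ ^ p := by
        refine Finset.sum_congr rfl fun j hj => ?_
        rw [hyi]
        simp only [(Finset.mem_filter.1 hj).2, if_true]
      rw [b4]
      refine Finset.sum_subset (Finset.subset_univ _) fun j _ hj => ?_
      have b5 : yi j = 0 := by
        rw [hyi]
        by_cases h1 : c j = i
        · have h2 : j ∉ I := fun h3 => hj (Finset.mem_filter.2 ⟨h3, h1⟩)
          simp [h1, hI j h2]
        · simp [h1]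
      rw [b5, norm_zero, Real.zero_rpow hp0.ne']
    rw [b3]
    refine (Finset.sum_le_card_nsmul _ _ (t ^ p) fun j _ =>
      Real.rpow_le_rpow (norm_nonneg _) (hy j) hp0.le).trans ?_
    rw [nsmul_eq_mul]
    exact mul_le_mul_of_nonneg_right (by exact_mod_cast hc i) (by positivity)
  rw [rsq_blocks c]
  refine (avg_mono hbound).trans ?_
  rw [avg_add, avg_const, avg_mul_left, avg_mul_left, avg_sum]
  refine add_le_add le_rfl ?_
  refine mul_le_mul_of_nonneg_left (mul_le_mul_of_nonneg_left ?_ (by positivity)) (by norm_num)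
  refine (Finset.sum_le_card_nsmul _ _ _ fun i _ => hqS i).trans (le_of_eq ?_)
  rw [nsmul_eq_mul, Finset.card_univ, Fintype.card_fin]

/-- The estimate for vectors of comparable norms. -/
theorem level_bound (J : X →L[ℝ] Z) (q : Z →L[ℝ] Q) {C s T p D : ℝ} (hC0 : 0 ≤ C) (hs : 1 < s)
    (hp : 1 < p)
    (hlift : ∀ z : Z, ∃ w : Z, q w = q z ∧ ‖w‖ ≤ C * ‖q z‖)
    (hR : ∀ (m : ℕ) (y : Fin m → Z), (∀ i, q (y i) = 0) →
      rsq y ≤ T ^ 2 * (∑ i, ‖y i‖ ^ s) ^ (2 / s))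
    (hJ : ∀ (n : ℕ) (x : Fin n → X), rsq (fun i => q (J (x i))) ≤
      D ^ 2 * (∑ i, ‖x i‖ ^ p) ^ (2 / p)) :
    ∃ K a : ℝ, 0 ≤ K ∧ 0 ≤ a ∧ a < 1 ∧ ∀ (n : ℕ) (y : Fin n → X) (I : Finset (Fin n)) (t : ℝ),
      0 ≤ t → (∀ i, i ∉ I → y i = 0) → (∀ i, ‖y i‖ ≤ t) →
      nrm2 (fun ε : Fin n → ℤˣ => ∑ i, sg (ε i) • J (y i)) ≤ K * t * (I.card : ℝ) ^ a := by
  have hs0 : 0 < s := by linarith
  have hp0 : 0 < p := by linarith
  set A : ℝ := (1 + C * ‖q‖) * ‖J‖ with hA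
  have hA0 : 0 ≤ A := by positivity
  set b : ℝ := max (1 / s) (1 / p) with hb
  have hbs : 1 / s ≤ b := le_max_left _ _
  have hbp : 1 / p ≤ b := le_max_right _ _
  have hb0 : 0 < b := lt_of_lt_of_le (by positivity) hbs
  have hb1 : b < 1 := by
    rw [hb, max_lt_iff]
    constructor
    · rw [div_lt_one hs0]; exact hs
    · rw [div_lt_one hp0]; exact hp
  set B : ℝ := 2 * (T ^ 2 * A ^ 2) + 2 * (C ^ 2 * D ^ 2) with hB
  have hB0 : 0 ≤ B := by positivity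
  refine ⟨√B * 4, (1 + b) / 2, by positivity, by positivity, by linarith, ?_⟩
  intro n y I t ht hI hy
  rcases Nat.eq_zero_or_pos I.card with hN | hN
  · have hy0 : ∀ i, y i = 0 := by
      intro i
      apply hI
      rw [Finset.card_eq_zero] at hN
      rw [hN]
      simp
    have h0 : (fun ε : Fin n → ℤˣ => ∑ i, sg (ε i) • J (y i)) = fun _ => 0 := by
      funext ε
      exact Finset.sum_eq_zero fun i _ => by rw [hy0 i, map_zero, smul_zero]
    rw [h0]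
    unfold nrm2
    simp only [norm_zero]
    have e : (avg fun _ : Fin n → ℤˣ => (0 : ℝ) ^ 2) = 0 := by
      rw [avg_const]; norm_num
    rw [e, Real.zero_rpow (by norm_num)]
    positivity
  set N : ℕ := I.card with hNdef
  set m : ℕ := Nat.sqrt N + 1 with hm
  have hm0 : 0 < m := by omega
  have hNm : N ≤ m * m := (Nat.lt_succ_sqrt N).le
  have hNr : (1:ℝ) ≤ N := by exact_mod_cast hN
  have hm2 : (m : ℝ) ≤ 2 * √N := by
    have h1 : (Nat.sqrt N : ℝ) ≤ √N := Real.nat_sqrt_le_real_sqrt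
    have h2 : 1 ≤ √(N : ℝ) := Real.one_le_sqrt.2 hNr
    rw [hm]
    push_cast
    linarith
  have hmr : (1:ℝ) ≤ m := by exact_mod_cast hm0
  have hmr0 : (0:ℝ) < m := by linarith
  obtain ⟨c, hc⟩ := exists_coloring hm0 I hNm
  have h1 := block_bound J q hC0 hs hp hlift hR hJ c I hc y ht hI hy
  have e1 : ((m : ℝ) * ((1 + C * ‖q‖) * (‖J‖ * (m * t))) ^ s) ^ (2 / s) =
      A ^ 2 * t ^ 2 * (m : ℝ) ^ (2 + 2 / s) := by
    have : (1 + C * ‖q‖) * (‖J‖ * (m * t)) = A * t * m := by rw [hA]; ring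
    rw [this, Real.mul_rpow hmr0.le (by positivity), ← Real.rpow_mul (by positivity),
      Real.rpow_add hmr0]
    have e0 : s * (2 / s) = (2 : ℕ) := by
      push_cast
      field_simp
    rw [e0, Real.rpow_natCast]
    have e3 : ((m : ℝ) ^ (2 : ℝ)) = (m : ℝ) ^ 2 := by
      rw [← Real.rpow_natCast]; norm_num
    rw [e3]
    ring
  have e2 : ((m : ℝ) * t ^ p) ^ (2 / p) = t ^ 2 * (m : ℝ) ^ (2 / p) := by
    rw [Real.mul_rpow hmr0.le (by positivity), ← Real.rpow_mul ht]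
    have e0 : p * (2 / p) = (2 : ℕ) := by
      push_cast
      field_simp
    rw [e0, Real.rpow_natCast]
    ring
  have l1 : (m : ℝ) ^ (2 + 2 / s) ≤ (m : ℝ) ^ (2 + 2 * b) := by
    apply Real.rpow_le_rpow_of_exponent_le hmr
    have : 2 / s = 2 * (1 / s) := by ring
    rw [this]
    linarith
  have l2 : (m : ℝ) ^ (2 : ℝ) * (m : ℝ) ^ (2 / p) ≤ (m : ℝ) ^ (2 + 2 * b) := by
    rw [← Real.rpow_add hmr0]
    apply Real.rpow_le_rpow_of_exponent_le hmr
    have : 2 / p = 2 * (1 / p) := by ring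
    rw [this]
    linarith
  have e3 : ((m : ℝ) ^ (2 : ℝ)) = (m : ℝ) ^ 2 := by
    rw [← Real.rpow_natCast]; norm_num
  have h2 : rsq (fun j => J (y j)) ≤ B * t ^ 2 * (m : ℝ) ^ (2 + 2 * b) := by
    refine h1.trans ?_
    rw [e1, e2]
    have f1 : 2 * (T ^ 2 * (A ^ 2 * t ^ 2 * (m : ℝ) ^ (2 + 2 / s))) ≤
        2 * (T ^ 2 * A ^ 2) * t ^ 2 * (m : ℝ) ^ (2 + 2 * b) := by
      calc 2 * (T ^ 2 * (A ^ 2 * t ^ 2 * (m : ℝ) ^ (2 + 2 / s)))
          = 2 * (T ^ 2 * A ^ 2) * t ^ 2 * (m : ℝ) ^ (2 + 2 / s) := by ring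
        _ ≤ _ := by gcongr
    have f2 : 2 * (m * C ^ 2 * (m * (D ^ 2 * (t ^ 2 * (m : ℝ) ^ (2 / p))))) ≤
        2 * (C ^ 2 * D ^ 2) * t ^ 2 * (m : ℝ) ^ (2 + 2 * b) := by
      calc 2 * (m * C ^ 2 * (m * (D ^ 2 * (t ^ 2 * (m : ℝ) ^ (2 / p)))))
          = 2 * (C ^ 2 * D ^ 2) * t ^ 2 * ((m : ℝ) ^ (2 : ℝ) * (m : ℝ) ^ (2 / p)) := by
            rw [e3]; ring
        _ ≤ _ := by gcongr
    calc _ ≤ 2 * (T ^ 2 * A ^ 2) * t ^ 2 * (m : ℝ) ^ (2 + 2 * b) +
          2 * (C ^ 2 * D ^ 2) * t ^ 2 * (m : ℝ) ^ (2 + 2 * b) := add_le_add f1 f2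
      _ = B * t ^ 2 * (m : ℝ) ^ (2 + 2 * b) := by rw [hB]; ring
  have h3 : (m : ℝ) ^ (2 + 2 * b) ≤ (4 * (N : ℝ) ^ ((1 + b) / 2)) ^ 2 := by
    have g1 : (m : ℝ) ^ (2 + 2 * b) = ((m : ℝ) ^ (1 + b)) ^ 2 := by
      rw [← Real.rpow_natCast ((m : ℝ) ^ (1 + b)), ← Real.rpow_mul hmr0.le]
      congr 1
      push_cast
      ring
    rw [g1]
    refine pow_le_pow_left₀ (by positivity) ?_ 2
    have g2 : (m : ℝ) ^ (1 + b) ≤ (2 * √N) ^ (1 + b) :=
      Real.rpow_le_rpow hmr0.le hm2 (by linarith)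
    refine g2.trans ?_
    rw [Real.mul_rpow (by norm_num) (Real.sqrt_nonneg _)]
    have g3 : (√(N : ℝ)) ^ (1 + b) = (N : ℝ) ^ ((1 + b) / 2) := by
      rw [Real.sqrt_eq_rpow, ← Real.rpow_mul (by linarith)]
      congr 1
      ring
    rw [g3]
    refine mul_le_mul_of_nonneg_right ?_ (by positivity)
    calc (2:ℝ) ^ (1 + b) ≤ 2 ^ (2:ℝ) :=
          Real.rpow_le_rpow_of_exponent_le (by norm_num) (by linarith)
      _ = 4 := by norm_num
  have h4 : rsq (fun j => J (y j)) ≤ (√B * 4 * t * (N : ℝ) ^ ((1 + b) / 2)) ^ 2 := by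
    calc rsq (fun j => J (y j)) ≤ B * t ^ 2 * (m : ℝ) ^ (2 + 2 * b) := h2
      _ ≤ B * t ^ 2 * (4 * (N : ℝ) ^ ((1 + b) / 2)) ^ 2 := by gcongr
      _ = (√B * 4 * t * (N : ℝ) ^ ((1 + b) / 2)) ^ 2 := by
        have g : √B ^ 2 = B := Real.sq_sqrt hB0
        calc _ = B * (t ^ 2 * (4 * (N : ℝ) ^ ((1 + b) / 2)) ^ 2) := by ring
          _ = √B ^ 2 * (t ^ 2 * (4 * (N : ℝ) ^ ((1 + b) / 2)) ^ 2) := by rw [g]
          _ = _ := by ring
  have h5 : nrm2 (fun ε : Fin n → ℤˣ => ∑ i, sg (ε i) • J (y i)) =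
      (rsq (fun j => J (y j))) ^ (1 / 2 : ℝ) := rfl
  rw [h5, ← Real.sqrt_eq_rpow]
  exact Real.sqrt_le_iff.2 ⟨by positivity, h4⟩

/-- **Extension by a subspace of type greater than one.** -/
theorem opHasType_of_comp (J : X →L[ℝ] Z) (q : Z →L[ℝ] Q) {C s T : ℝ} (hC0 : 0 ≤ C) (hs : 1 < s)
    (hlift : ∀ z : Z, ∃ w : Z, q w = q z ∧ ‖w‖ ≤ C * ‖q z‖)
    (hR : ∀ (m : ℕ) (y : Fin m → Z), (∀ i, q (y i) = 0) →
      rsq y ≤ T ^ 2 * (∑ i, ‖y i‖ ^ s) ^ (2 / s))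
    (hJ : OpHasType (q.comp J)) : OpHasType J := by
  obtain ⟨p, D, hp1, hp2, hD⟩ := hJ
  have hp0 : 0 < p := by linarith
  have hJ' : ∀ (n : ℕ) (x : Fin n → X), rsq (fun i => q (J (x i))) ≤
      |D| ^ 2 * (∑ i, ‖x i‖ ^ p) ^ (2 / p) := by
    intro n x
    have hS0 : 0 ≤ ∑ i, ‖x i‖ ^ p := Finset.sum_nonneg fun _ _ => by positivity
    have h1 : rsq (fun i => q (J (x i))) ^ (1 / 2 : ℝ) ≤ |D| * (∑ i, ‖x i‖ ^ p) ^ (1 / p) :=
      (hD n x).trans (mul_le_mul_of_nonneg_right (le_abs_self D) (by positivity))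
    rw [← Real.sqrt_eq_rpow, Real.sqrt_le_left (by positivity)] at h1
    refine h1.trans (le_of_eq ?_)
    rw [mul_pow, ← Real.rpow_natCast ((∑ i, ‖x i‖ ^ p) ^ (1 / p)), ← Real.rpow_mul hS0]
    congr 2
    push_cast
    ring
  obtain ⟨K, a, hK, ha0, ha1, h⟩ := level_bound J q hC0 hs hp1 hlift hR hJ'
  have h1a : 0 < 1 + a := by linarith
  have hpa : 2 / (1 + a) * a < 1 := by
    rw [div_mul_eq_mul_div, div_lt_one h1a]
    linarith
  refine ⟨2 / (1 + a), K * (2 ^ (2 / (1 + a) * a) / (1 - 2 ^ (2 / (1 + a) * a - 1))), ?_, ?_, ?_⟩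
  · rw [lt_div_iff₀ h1a]; linarith
  · rw [div_le_iff₀ h1a]; linarith
  · intro n x
    exact type_of_level hK ha0 (by positivity) hpa J (fun y I t ht hI hyt => h n y I t ht hI hyt) x

end Vale.Agent.P111.R2.H560.TS
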