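import Vale.Agent.P111.R2.H560.Growth
import Vale.Agent.P111.L1.Defs
import Mathlib.Analysis.Normed.Operator.Banach
import Mathlib.Analysis.Normed.Module.HahnBanach

/-! The three-space property of finite cotype, and duality. -/

namespace Vale.Agent.P111.R2.H560.TS

open Vale.Agent.P111 Vale.Agent.P111.QL
open Finset

theorem cotype_count {q : ℝ} {E : Type*} [NormedAddCommGroup E] [NormedSpace ℝ E]
    (h : HasCotype q E) : ∃ K : ℝ, 0 ≤ K ∧ ∀ (m : ℕ) (y : Fin m → E) (t : ℝ), 0 ≤ t →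
      (∀ i, t ≤ ‖y i‖) → m * t ^ q ≤ K * rsq y ^ (q / 2) := by
  obtain ⟨hq2, C, hC⟩ := h
  have hq0 : 0 < q := by linarith
  refine ⟨|C| ^ q, by positivity, fun m y t ht hy => ?_⟩
  have h1 : (∑ i, ‖y i‖ ^ q) ^ (1 / q) ≤ |C| * rsq y ^ (1 / 2 : ℝ) :=
    (hC m y).trans (mul_le_mul_of_nonneg_right (le_abs_self C)
      (Real.rpow_nonneg (rsq_nonneg y) _))
  have hS0 : 0 ≤ ∑ i, ‖y i‖ ^ q := Finset.sum_nonneg fun i _ => by positivity
  have h2 := Real.rpow_le_rpow (by positivity) h1 hq0.le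
  rw [← Real.rpow_mul hS0, one_div_mul_cancel hq0.ne', Real.rpow_one,
    Real.mul_rpow (abs_nonneg C) (Real.rpow_nonneg (rsq_nonneg y) _),
    ← Real.rpow_mul (rsq_nonneg y)] at h2
  have h3 : (m : ℝ) * t ^ q ≤ ∑ i, ‖y i‖ ^ q := by
    have h4 : ∀ i ∈ (Finset.univ : Finset (Fin m)), t ^ q ≤ ‖y i‖ ^ q :=
      fun i _ => Real.rpow_le_rpow ht (hy i) hq0.le
    have h5 := Finset.card_nsmul_le_sum _ _ _ h4
    rwa [Finset.card_univ, Fintype.card_fin, nsmul_eq_mul] at h5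
  refine h3.trans (h2.trans (le_of_eq ?_))
  congr 2
  ring

/-- **Three-space property of finite cotype.** -/
theorem three_space {V Y U : Type*} [NormedAddCommGroup V] [NormedSpace ℝ V]
    [NormedAddCommGroup Y] [NormedSpace ℝ Y] [NormedAddCommGroup U] [NormedSpace ℝ U]
    (ι : V →L[ℝ] Y) (ρ : Y →L[ℝ] U) {L : ℝ} (hL : 1 ≤ L) (h1 : ∀ v, ‖ι v‖ ≤ L * ‖v‖)
    (h2 : ∀ v, ‖v‖ ≤ L * ‖ι v‖) (h3 : ∀ y, ‖ρ y‖ ≤ L * ‖y‖)
    (h4 : ∀ y, ∃ v, ‖y - ι v‖ ≤ L * ‖ρ y‖) {q₀ q₁ : ℝ} (hV : HasCotype q₀ V)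
    (hU : HasCotype q₁ U) : ∃ q, HasCotype q Y := by
  obtain ⟨K0, hK0, hV'⟩ := cotype_count hV
  obtain ⟨K1, hK1, hU'⟩ := cotype_count hU
  have hq0 : 0 < q₀ := by linarith [hV.1]
  have hq1 : 0 < q₁ := by linarith [hU.1]
  have hL0 : 0 < L := by linarith
  set M : ℕ := ⌈K0 * (18 * L ^ 2) ^ (q₀ / 2) * (2 * L) ^ q₀⌉₊ + 2 with hM
  have hM2 : 2 ≤ M := by omega
  have hMr : (2:ℝ) ≤ M := by exact_mod_cast hM2
  have hMr0 : (0:ℝ) < M := by linarith
  have hMbig : K0 * (18 * L ^ 2) ^ (q₀ / 2) * (2 * L) ^ q₀ < M := by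
    have := Nat.le_ceil (K0 * (18 * L ^ 2) ^ (q₀ / 2) * (2 * L) ^ q₀)
    rw [hM]
    push_cast
    linarith
  set δ : ℝ := 1 / (M * L) with hδ
  have hδ0 : 0 < δ := by positivity
  set B1 : ℕ := ⌈K1 * (8 * L ^ 2) ^ (q₁ / 2) / δ ^ q₁⌉₊ + 1 with hB1
  have hB1big : K1 * (8 * L ^ 2) ^ (q₁ / 2) / δ ^ q₁ < B1 := by
    have := Nat.le_ceil (K1 * (8 * L ^ 2) ^ (q₁ / 2) / δ ^ q₁)
    rw [hB1]
    push_cast
    linarith
  have hG : Grows 8 (M + B1) Y := by
    intro y hy
    by_contra hlt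
    push Not at hlt
    set I1 : Finset (Fin (M + B1)) := Finset.univ.filter fun i => δ ≤ ‖ρ (y i)‖ with hI1
    have hcard : I1.card < B1 := by
      by_contra hge
      push Not at hge
      obtain ⟨e, he, hes⟩ := exists_embedding I1 hge
      have a1 := hU' B1 (fun j => ρ (y (e j))) δ hδ0.le fun j => (Finset.mem_filter.1 (hes j)).2
      have a2 : rsq (fun j => ρ (y (e j))) ≤ 8 * L ^ 2 := by
        have a3 : rsq (fun j => ρ (y (e j))) ≤ L ^ 2 * rsq (fun j => y (e j)) := by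
          refine rsq_map_le (fun y => ρ y) (fun c z => ?_) _
          have : ∑ i, c i • ρ (z i) = ρ (∑ i, c i • z i) := by simp
          rw [this]
          exact h3 _
        have a4 := rsq_comp_le e he y
        nlinarith [sq_nonneg L]
      have a5 : (B1 : ℝ) * δ ^ q₁ ≤ K1 * (8 * L ^ 2) ^ (q₁ / 2) :=
        a1.trans (mul_le_mul_of_nonneg_left (Real.rpow_le_rpow (rsq_nonneg _) a2 (by positivity))
          hK1)
      rw [div_lt_iff₀ (by positivity)] at hB1big
      linarith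
    have hcomp : M ≤ (Finset.univ.filter fun i => ¬ δ ≤ ‖ρ (y i)‖).card := by
      have := Finset.card_filter_add_card_filter_not (s := (Finset.univ : Finset (Fin (M + B1))))
        (fun i => δ ≤ ‖ρ (y i)‖)
      rw [Finset.card_univ, Fintype.card_fin] at this
      rw [hI1] at hcard
      omega
    obtain ⟨e, he, hes⟩ := exists_embedding _ hcomp
    choose v hv using fun j => h4 (y (e j))
    have hd : ∀ j, ‖y (e j) - ι (v j)‖ ≤ 1 / M := by
      intro j
      have b1 : ‖ρ (y (e j))‖ < δ := by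
        have := (Finset.mem_filter.1 (hes j)).2
        push Not at this
        exact this
      refine (hv j).trans ((mul_le_mul_of_nonneg_left b1.le hL0.le).trans (le_of_eq ?_))
      rw [hδ]
      field_simp
    have hM12 : 1 / (M : ℝ) ≤ 1 / 2 := by
      apply one_div_le_one_div_of_le (by norm_num) hMr
    have hvn : ∀ j, 1 / (2 * L) ≤ ‖v j‖ := by
      intro j
      have b1 := hy (e j)
      have b2 : ‖y (e j)‖ ≤ ‖y (e j) - ι (v j)‖ + ‖ι (v j)‖ := by
        have := norm_add_le (y (e j) - ι (v j)) (ι (v j))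
        rwa [sub_add_cancel] at this
      have b3 := h1 (v j)
      have b4 : 1 / 2 ≤ L * ‖v j‖ := by
        have := hd j
        linarith
      rw [div_le_iff₀ (by positivity)]
      linarith
    have hr1 : rsq v ≤ L ^ 2 * rsq (fun j => ι (v j)) := by
      unfold rsq
      rw [← avg_mul_left]
      refine avg_mono fun ε => ?_
      rw [← mul_pow]
      refine pow_le_pow_left₀ (norm_nonneg _) ?_ 2
      have : ∑ i, sg (ε i) • ι (v i) = ι (∑ i, sg (ε i) • v i) := by simp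
      rw [this]
      exact h2 _
    have hr2 : rsq (fun j => ι (v j)) ≤ 18 := by
      have b1 := rsq_add_le (fun j => y (e j)) (fun j => ι (v j) - y (e j))
      have b2 : (fun j => y (e j) + (ι (v j) - y (e j))) = fun j => ι (v j) := by
        funext j
        abel
      rw [b2] at b1
      have b3 := rsq_comp_le e he y
      have b4 := rsq_le_card (δ := 1 / M) (fun j => ι (v j) - y (e j)) (fun j => by
        rw [norm_sub_rev]; exact hd j)
      rw [Fintype.card_fin, mul_one_div_cancel hMr0.ne'] at b4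
      linarith
    have hr3 : rsq v ≤ 18 * L ^ 2 := by nlinarith [sq_nonneg L]
    have a1 := hV' M v (1 / (2 * L)) (by positivity) hvn
    have a2 : (M : ℝ) * (1 / (2 * L)) ^ q₀ ≤ K0 * (18 * L ^ 2) ^ (q₀ / 2) :=
      a1.trans (mul_le_mul_of_nonneg_left (Real.rpow_le_rpow (rsq_nonneg _) hr3 (by positivity))
        hK0)
    rw [one_div, Real.inv_rpow (by positivity), ← div_eq_mul_inv, div_le_iff₀ (by positivity)] at a2
    linarith
  exact hG.cotype

/-- Norming vectors. -/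
theorem exists_half_norming {X : Type*} [NormedAddCommGroup X] [NormedSpace ℝ X]
    (g : X →L[ℝ] ℝ) : ∃ u : X, ‖u‖ ≤ 1 ∧ ‖g‖ / 2 ≤ g u := by
  rcases eq_or_ne g 0 with rfl | hg
  · exact ⟨0, by simp, by simp⟩
  · have hpos : 0 < ‖g‖ := norm_pos_iff.2 hg
    obtain ⟨x, hx⟩ : ∃ x : X, ‖g‖ / 2 * ‖x‖ < ‖g x‖ := by
      by_contra hcon
      push Not at hcon
      have := g.opNorm_le_bound (by positivity) hcon
      linarith
    have hx0 : 0 < ‖x‖ := by
      rcases (norm_nonneg x).eq_or_lt with h0 | h0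
      · rw [← h0, mul_zero] at hx
        have : x = 0 := norm_eq_zero.1 h0.symm
        rw [this, map_zero, norm_zero] at hx
        exact absurd hx (lt_irrefl _)
      · exact h0
    rcases le_total 0 (g x) with hs | hs
    · refine ⟨‖x‖⁻¹ • x, ?_, ?_⟩
      · rw [norm_smul, norm_inv, norm_norm, inv_mul_cancel₀ hx0.ne']
      · rw [map_smul, smul_eq_mul, ← div_eq_inv_mul, le_div_iff₀ hx0]
        rw [Real.norm_of_nonneg hs] at hx
        exact hx.le
    · refine ⟨-(‖x‖⁻¹ • x), ?_, ?_⟩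
      · rw [norm_neg, norm_smul, norm_inv, norm_norm, inv_mul_cancel₀ hx0.ne']
      · rw [map_neg, map_smul, smul_eq_mul, ← mul_neg, ← div_eq_inv_mul, le_div_iff₀ hx0]
        rw [Real.norm_of_nonpos hs] at hx
        exact hx.le

/-- Orthogonality of the signs, for a duality pairing. -/
theorem avg_pairing {X : Type*} [NormedAddCommGroup X] [NormedSpace ℝ X] {n : ℕ}
    (g : Fin n → (X →L[ℝ] ℝ)) (x : Fin n → X) :
    (avg fun ε : Fin n → ℤˣ => (∑ i, sg (ε i) • g i) (∑ i, sg (ε i) • x i)) = ∑ i, g i (x i) := by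
  have e : ∀ ε : Fin n → ℤˣ, (∑ i, sg (ε i) • g i) (∑ i, sg (ε i) • x i) =
      ∑ i, ∑ j, (g i (x j)) * (sg (ε i) * sg (ε j)) := by
    intro ε
    rw [_root_.sum_apply]
    refine Finset.sum_congr rfl fun i _ => ?_
    rw [map_sum]
    refine Finset.sum_congr rfl fun j _ => ?_
    rw [smul_apply, map_smul, smul_eq_mul, smul_eq_mul]
    ring
  rw [avg_congr e, avg_sum]
  refine Finset.sum_congr rfl fun i _ => ?_
  rw [avg_sum]
  have e2 : ∀ j, (avg fun ε : Fin n → ℤˣ => (g i (x j)) * (sg (ε i) * sg (ε j))) =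
      if i = j then g i (x j) else 0 := by
    intro j
    rw [avg_mul_left, avg_sg_mul_sg]
    split_ifs <;> simp
  simp only [e2]
  simp

/-- The dual of a space of type `p` has cotype `p'`. -/
theorem dual_cotype {R : Type*} [NormedAddCommGroup R] [NormedSpace ℝ R] {p : ℝ}
    (h : L1.HasType p R) : ∃ q, HasCotype q (R →L[ℝ] ℝ) := by
  obtain ⟨hp1, hp2, T, hT⟩ := h
  have hp0 : 0 < p := by linarith
  set q : ℝ := p / (p - 1) with hq
  have hpm : 0 < p - 1 := by linarith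
  have hq2 : 2 ≤ q := by rw [hq, le_div_iff₀ hpm]; linarith
  have hq0 : 0 < q := by linarith
  have hqp : (q - 1) * p = q := by rw [hq]; field_simp; ring
  have h1q : 1 - 1 / p = 1 / q := by rw [hq]; field_simp
  refine ⟨q, hq2, 2 * |T|, fun n g => ?_⟩
  set S : ℝ := ∑ i, ‖g i‖ ^ q with hS
  have hS0 : 0 ≤ S := Finset.sum_nonneg fun i _ => by positivity
  rcases hS0.eq_or_lt with h0 | hpos
  · rw [← h0, Real.zero_rpow (by positivity)]
    exact mul_nonneg (by positivity) (Real.rpow_nonneg (rsq_nonneg g) _)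
  choose u hu1 hu2 using fun i => exists_half_norming (g i)
  set x : Fin n → R := fun i => ‖g i‖ ^ (q - 1) • u i with hx
  have h1 : S / 2 ≤ ∑ i, g i (x i) := by
    rw [hS, Finset.sum_div]
    refine Finset.sum_le_sum fun i _ => ?_
    rw [hx, map_smul, smul_eq_mul]
    have e : ‖g i‖ ^ q / 2 = ‖g i‖ ^ (q - 1) * (‖g i‖ / 2) := by
      rcases (norm_nonneg (g i)).eq_or_lt with h0 | h0
      · rw [← h0, Real.zero_rpow hq0.ne']; simp
      · rw [Real.rpow_sub_one h0.ne']; field_simp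
    rw [e]
    exact mul_le_mul_of_nonneg_left (hu2 i) (by positivity)
  have h2 : ∑ i, ‖x i‖ ^ p ≤ S := by
    refine Finset.sum_le_sum fun i _ => ?_
    rw [hx, norm_smul, Real.norm_of_nonneg (by positivity)]
    have e : ‖g i‖ ^ q = (‖g i‖ ^ (q - 1)) ^ p := by
      rw [← Real.rpow_mul (norm_nonneg _), hqp]
    rw [e]
    refine Real.rpow_le_rpow (by positivity) ?_ hp0.le
    exact mul_le_of_le_one_right (by positivity) (hu1 i)
  have h3 : rsq x ^ (1 / 2 : ℝ) ≤ |T| * S ^ (1 / p) := by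
    refine (hT n x).trans ?_
    refine (mul_le_mul_of_nonneg_right (le_abs_self T) (Real.rpow_nonneg
      (Finset.sum_nonneg fun i _ => by positivity) _)).trans ?_
    exact mul_le_mul_of_nonneg_left (Real.rpow_le_rpow (Finset.sum_nonneg fun i _ => by positivity)
      h2 (by positivity)) (abs_nonneg T)
  have h4 : ∑ i, g i (x i) ≤ rsq g ^ (1 / 2 : ℝ) * rsq x ^ (1 / 2 : ℝ) := by
    rw [← avg_pairing]
    have a1 : (avg fun ε : Fin n → ℤˣ => (∑ i, sg (ε i) • g i) (∑ i, sg (ε i) • x i)) ≤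
        avg fun ε : Fin n → ℤˣ => ‖∑ i, sg (ε i) • g i‖ * ‖∑ i, sg (ε i) • x i‖ :=
      avg_mono fun ε => (le_abs_self _).trans (by
        rw [← Real.norm_eq_abs]; exact ContinuousLinearMap.le_opNorm _ _)
    refine a1.trans ?_
    rw [← Real.sqrt_eq_rpow, ← Real.sqrt_eq_rpow, ← Real.sqrt_mul (rsq_nonneg g)]
    refine Real.le_sqrt_of_sq_le ?_
    exact avg_mul_sq_le _ _
  have h5 : S ≤ 2 * |T| * rsq g ^ (1 / 2 : ℝ) * S ^ (1 / p) := by
    have a2 : rsq g ^ (1 / 2 : ℝ) * rsq x ^ (1 / 2 : ℝ) ≤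
        rsq g ^ (1 / 2 : ℝ) * (|T| * S ^ (1 / p)) :=
      mul_le_mul_of_nonneg_left h3 (Real.rpow_nonneg (rsq_nonneg g) _)
    linarith
  have h6 : S ^ (1 / q) * S ^ (1 / p) = S := by
    rw [← Real.rpow_add hpos, ← h1q]
    simp
  have h7 : 0 < S ^ (1 / p) := by positivity
  have h8 : S ^ (1 / q) * S ^ (1 / p) ≤ 2 * |T| * rsq g ^ (1 / 2 : ℝ) * S ^ (1 / p) := by
    rw [h6]; exact h5
  exact le_of_mul_le_mul_right h8 h7

/-- **Duals and quotients by subspaces of type `> 1`**: if `π : W → X` is onto, `ker π` has type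
`p` for some `p > 1` and `X*` has finite cotype, then `W*` has finite cotype. -/
theorem dual_cotype_of_surjective {W X : Type*} [NormedAddCommGroup W] [NormedSpace ℝ W]
    [CompleteSpace W] [NormedAddCommGroup X] [NormedSpace ℝ X] [CompleteSpace X]
    (π : W →L[ℝ] X) (hπ : Function.Surjective π) {p : ℝ}
    (hR : L1.HasType p (LinearMap.ker (π : W →ₗ[ℝ] X))) {r : ℝ}
    (hX : HasCotype r (X →L[ℝ] ℝ)) : ∃ q, HasCotype q (W →L[ℝ] ℝ) := by
  obtain ⟨q₁, hU⟩ := dual_cotype hR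
  obtain ⟨C, hC0, hC⟩ := π.exists_preimage_norm_le hπ
  set R : Submodule ℝ W := LinearMap.ker (π : W →ₗ[ℝ] X) with hRdef
  -- the two maps
  set ι : (X →L[ℝ] ℝ) →L[ℝ] (W →L[ℝ] ℝ) := (ContinuousLinearMap.compL ℝ W X ℝ).flip π with hι
  set ρ : (W →L[ℝ] ℝ) →L[ℝ] (R →L[ℝ] ℝ) :=
    (ContinuousLinearMap.compL ℝ R W ℝ).flip R.subtypeL with hρ
  have hιa : ∀ g w, ι g w = g (π w) := fun g w => rfl
  have hρa : ∀ φ (w : R), ρ φ w = φ w := fun φ w => rfl
  set L : ℝ := max 1 (max ‖π‖ C) with hL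
  have hL1 : 1 ≤ L := le_max_left _ _
  have hLπ : ‖π‖ ≤ L := (le_max_left _ _).trans (le_max_right _ _)
  have hLC : C ≤ L := (le_max_right _ _).trans (le_max_right _ _)
  have hL0 : 0 < L := by linarith
  refine three_space ι ρ hL1 ?_ ?_ ?_ ?_ hX hU
  · intro g
    refine ContinuousLinearMap.opNorm_le_bound _ (by positivity) fun w => ?_
    rw [hιa]
    calc ‖g (π w)‖ ≤ ‖g‖ * ‖π w‖ := g.le_opNorm _
      _ ≤ ‖g‖ * (‖π‖ * ‖w‖) := by gcongr; exact π.le_opNorm w
      _ ≤ ‖g‖ * (L * ‖w‖) := by gcongr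
      _ = L * ‖g‖ * ‖w‖ := by ring
  · intro g
    refine ContinuousLinearMap.opNorm_le_bound _ (by positivity) fun x => ?_
    obtain ⟨w, hw, hwn⟩ := hC x
    rw [← hw, ← hιa]
    calc ‖ι g w‖ ≤ ‖ι g‖ * ‖w‖ := (ι g).le_opNorm _
      _ ≤ ‖ι g‖ * (C * ‖x‖) := by gcongr
      _ ≤ ‖ι g‖ * (L * ‖x‖) := by gcongr
      _ = L * ‖ι g‖ * ‖π w‖ := by rw [hw]; ring
  · intro φ
    refine ContinuousLinearMap.opNorm_le_bound _ (by positivity) fun w => ?_
    rw [hρa]
    calc ‖φ w‖ ≤ ‖φ‖ * ‖(w : W)‖ := φ.le_opNorm _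
      _ = 1 * ‖φ‖ * ‖w‖ := by rw [one_mul]; rfl
      _ ≤ L * ‖φ‖ * ‖w‖ := by gcongr
  · intro φ
    obtain ⟨h, hh1, hh2⟩ := exists_extension_norm_eq (𝕜 := ℝ) R (ρ φ)
    have hker : ∀ w ∈ R, (φ - h) w = 0 := by
      intro w hw
      have := hh1 ⟨w, hw⟩
      rw [hρa] at this
      rw [ContinuousLinearMap.sub_apply, this, sub_self]
    choose s hs hsn using hC
    have hinv : ∀ w w', π w = π w' → (φ - h) w = (φ - h) w' := by
      intro w w' hww
      have hmem : w - w' ∈ R := by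
        rw [hRdef, LinearMap.mem_ker]
        simp [hww]
      have := hker _ hmem
      rw [map_sub, sub_eq_zero] at this
      exact this
    let g0 : X →ₗ[ℝ] ℝ :=
      { toFun := fun x => (φ - h) (s x)
        map_add' := fun x y => by
          rw [← map_add]
          apply hinv
          rw [map_add, hs, hs, hs]
        map_smul' := fun c x => by
          rw [RingHom.id_apply, ← map_smul]
          apply hinv
          rw [map_smul, hs, hs] }
    let g : X →L[ℝ] ℝ := g0.mkContinuous (‖φ - h‖ * C) fun x => by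
      calc ‖(φ - h) (s x)‖ ≤ ‖φ - h‖ * ‖s x‖ := (φ - h).le_opNorm _
        _ ≤ ‖φ - h‖ * (C * ‖x‖) := by gcongr; exact hsn x
        _ = ‖φ - h‖ * C * ‖x‖ := by ring
    refine ⟨g, ?_⟩
    have hg : φ - ι g = h := by
      ext w
      have e1 : ι g w = (φ - h) (s (π w)) := rfl
      have e2 : (φ - h) (s (π w)) = (φ - h) w := hinv _ _ (hs _)
      rw [ContinuousLinearMap.sub_apply, e1, e2, ContinuousLinearMap.sub_apply]
      ring
    rw [hg, hh2]
    calc ‖ρ φ‖ = 1 * ‖ρ φ‖ := (one_mul _).symm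
      _ ≤ L * ‖ρ φ‖ := by gcongr

end Vale.Agent.P111.R2.H560.TS
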