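import Vale.Agent.P111.R2.H351.Final
import Vale.Agent.P111.R2.H560.ThreeSpace
import Vale.Agent.P111.R2.H560.ExtLevel

/-! Good targets: quotients and extensions by subspaces of type greater than one. -/

namespace Vale.Agent.P111.R2.H560.TS

open Vale.Agent.P111 Vale.Agent.P111.QL
open Vale.Agent.P111.R2.H351 (nrm2 RadClass LiftWith coef)
open Vale.Agent.P111.L1 (HasType TypeWith)
open Finset

universe u v

section

variable {X : Type*} {Z : Type*} {Q : Type*} [NormedAddCommGroup X] [NormedSpace ℝ X]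
  [NormedAddCommGroup Z] [NormedSpace ℝ Z] [NormedAddCommGroup Q] [NormedSpace ℝ Q]

theorem sq_rpow_half {a : ℝ} (ha : 0 ≤ a) : (a ^ 2) ^ (1 / 2 : ℝ) = a := by
  rw [← Real.sqrt_eq_rpow, Real.sqrt_sq ha]

theorem hasType_of_isometry {E F : Type*} [NormedAddCommGroup E] [NormedSpace ℝ E]
    [NormedAddCommGroup F] [NormedSpace ℝ F] {p : ℝ} (T : E →ₗ[ℝ] F) (hT : ∀ e, ‖T e‖ = ‖e‖)
    (h : HasType p F) : HasType p E := by
  obtain ⟨hp1, hp2, C, hC⟩ := h
  refine ⟨hp1, hp2, C, fun n y => ?_⟩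
  have h1 := hC n (fun i => T (y i))
  simp only [hT] at h1
  refine le_trans (le_of_eq ?_) h1
  congr 1
  refine avg_congr fun ε => ?_
  rw [← hT]
  congr 2
  simp

/-- The type inequality in the form used for kernels. -/
theorem kernel_form (q : Z →L[ℝ] Q) {s : ℝ}
    (h : HasType s (LinearMap.ker (q : Z →ₗ[ℝ] Q))) :
    1 < s ∧ ∃ T : ℝ, ∀ (m : ℕ) (y : Fin m → Z), (∀ i, q (y i) = 0) →
      rsq y ≤ T ^ 2 * (∑ i, ‖y i‖ ^ s) ^ (2 / s) := by
  obtain ⟨hs1, hs2, T, hT⟩ := h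
  have hs0 : 0 < s := by linarith
  refine ⟨hs1, |T|, fun m y hy => ?_⟩
  let y' : Fin m → LinearMap.ker (q : Z →ₗ[ℝ] Q) := fun i => ⟨y i, by
    rw [LinearMap.mem_ker]; exact hy i⟩
  have h1 := hT m y'
  have hS0 : 0 ≤ ∑ i, ‖y i‖ ^ s := Finset.sum_nonneg fun _ _ => by positivity
  have e1 : (avg fun ε : Fin m → ℤˣ => ‖∑ i, sg (ε i) • y' i‖ ^ 2) = rsq y := by
    unfold rsq
    refine avg_congr fun ε => ?_
    congr 1
    have e0 : ‖∑ i, sg (ε i) • y' i‖ =
        ‖((∑ i, sg (ε i) • y' i : LinearMap.ker (q : Z →ₗ[ℝ] Q)) : Z)‖ := rfl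
    rw [e0]
    congr 1
    simp [y']
  have e2 : ∑ i, ‖y' i‖ ^ s = ∑ i, ‖y i‖ ^ s := rfl
  rw [e1, e2] at h1
  have h2 : rsq y ^ (1 / 2 : ℝ) ≤ |T| * (∑ i, ‖y i‖ ^ s) ^ (1 / s) :=
    h1.trans (mul_le_mul_of_nonneg_right (le_abs_self T) (by positivity))
  rw [← Real.sqrt_eq_rpow, Real.sqrt_le_left (by positivity)] at h2
  refine h2.trans (le_of_eq ?_)
  rw [mul_pow, ← Real.rpow_natCast ((∑ i, ‖y i‖ ^ s) ^ (1 / s)), ← Real.rpow_mul hS0]
  congr 2
  push_cast
  ring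

theorem opHasType_of_ker [CompleteSpace Z] [CompleteSpace Q] (q : Z →L[ℝ] Q)
    (hq : Function.Surjective q) {s : ℝ} (h : HasType s (LinearMap.ker (q : Z →ₗ[ℝ] Q)))
    (J : X →L[ℝ] Z) (hJ : OpHasType (q.comp J)) : OpHasType J := by
  obtain ⟨hs1, T, hT⟩ := kernel_form q h
  obtain ⟨C, hC0, hC⟩ := q.exists_preimage_norm_le hq
  exact opHasType_of_comp J q hC0.le hs1 (fun z => hC (q z)) hT hJ

theorem opHasType_id_iff : OpHasType (ContinuousLinearMap.id ℝ X) ↔ ∃ p, HasType p X := by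
  constructor
  · rintro ⟨p, C, hp1, hp2, h⟩
    exact ⟨p, hp1, hp2, C, h⟩
  · rintro ⟨p, hp1, hp2, C, h⟩
    exact ⟨p, C, hp1, hp2, h⟩

theorem OpHasType.comp_left {J : X →L[ℝ] Z} (h : OpHasType J) (T : Z →L[ℝ] Q) :
    OpHasType (T.comp J) := by
  obtain ⟨p, C, hp1, hp2, hC⟩ := h
  refine ⟨p, ‖T‖ * C, hp1, hp2, fun n x => ?_⟩
  have h1 : (avg fun ε : Fin n → ℤˣ => ‖∑ i, sg (ε i) • (T.comp J) (x i)‖ ^ 2) ≤
      ‖T‖ ^ 2 * (avg fun ε : Fin n → ℤˣ => ‖∑ i, sg (ε i) • J (x i)‖ ^ 2) := by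
    rw [← avg_mul_left]
    refine avg_mono fun ε => ?_
    rw [← mul_pow]
    refine pow_le_pow_left₀ (norm_nonneg _) ?_ 2
    have : ∑ i, sg (ε i) • (T.comp J) (x i) = T (∑ i, sg (ε i) • J (x i)) := by simp
    rw [this]
    exact T.le_opNorm _
  have h2 := Real.rpow_le_rpow (avg_nonneg fun _ => by positivity) h1
    (show (0:ℝ) ≤ 1 / 2 by norm_num)
  rw [Real.mul_rpow (by positivity) (avg_nonneg fun _ => by positivity),
    sq_rpow_half (norm_nonneg _)] at h2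
  refine h2.trans ?_
  rw [mul_assoc]
  exact mul_le_mul_of_nonneg_left (hC n x) (norm_nonneg _)

theorem opHasType_of_embed {J : X →L[ℝ] Z} (T : Z →L[ℝ] Q) {D : ℝ}
    (hT : ∀ z, ‖z‖ ≤ D * ‖T z‖) (h : OpHasType (T.comp J)) : OpHasType J := by
  obtain ⟨p, C, hp1, hp2, hC⟩ := h
  refine ⟨p, |D| * C, hp1, hp2, fun n x => ?_⟩
  have h1 : (avg fun ε : Fin n → ℤˣ => ‖∑ i, sg (ε i) • J (x i)‖ ^ 2) ≤
      |D| ^ 2 * (avg fun ε : Fin n → ℤˣ => ‖∑ i, sg (ε i) • (T.comp J) (x i)‖ ^ 2) := by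
    rw [← avg_mul_left]
    refine avg_mono fun ε => ?_
    rw [← mul_pow]
    refine pow_le_pow_left₀ (norm_nonneg _) ?_ 2
    have : ∑ i, sg (ε i) • (T.comp J) (x i) = T (∑ i, sg (ε i) • J (x i)) := by simp
    rw [this]
    exact (hT _).trans (mul_le_mul_of_nonneg_right (le_abs_self D) (norm_nonneg _))
  have h2 := Real.rpow_le_rpow (avg_nonneg fun _ => by positivity) h1
    (show (0:ℝ) ≤ 1 / 2 by norm_num)
  rw [Real.mul_rpow (by positivity) (avg_nonneg fun _ => by positivity),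
    sq_rpow_half (abs_nonneg _)] at h2
  refine h2.trans ?_
  rw [mul_assoc]
  exact mul_le_mul_of_nonneg_left (hC n x) (abs_nonneg _)

/-- If `J ∘ π` has type greater than one and `π` is onto, then so does `J`. -/
theorem opHasType_of_surjective {W : Type*} [NormedAddCommGroup W] [NormedSpace ℝ W]
    (π : W →L[ℝ] X) (J : X →L[ℝ] Z) {C : ℝ} (hC0 : 0 ≤ C)
    (hπ : ∀ x, ∃ w, π w = x ∧ ‖w‖ ≤ C * ‖x‖)
    (h : OpHasType (J.comp π)) : OpHasType J := by
  obtain ⟨p, D, hp1, hp2, hD⟩ := h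
  have hp0 : 0 < p := by linarith
  refine ⟨p, |D| * C, hp1, hp2, fun n x => ?_⟩
  choose w hw hwn using fun i => hπ (x i)
  have h1 := hD n w
  have e1 : ∀ i, (J.comp π) (w i) = J (x i) := fun i => by
    rw [ContinuousLinearMap.comp_apply, hw]
  simp only [e1] at h1
  refine h1.trans ?_
  refine (mul_le_mul_of_nonneg_right (le_abs_self D) (by positivity)).trans ?_
  rw [mul_assoc]
  refine mul_le_mul_of_nonneg_left ?_ (abs_nonneg D)
  have hS0 : 0 ≤ ∑ i, ‖x i‖ ^ p := Finset.sum_nonneg fun _ _ => by positivity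
  have h2 : ∑ i, ‖w i‖ ^ p ≤ C ^ p * ∑ i, ‖x i‖ ^ p := by
    rw [Finset.mul_sum]
    refine Finset.sum_le_sum fun i _ => ?_
    rw [← Real.mul_rpow hC0 (norm_nonneg _)]
    exact Real.rpow_le_rpow (norm_nonneg _) (hwn i) hp0.le
  refine (Real.rpow_le_rpow (Finset.sum_nonneg fun _ _ => by positivity) h2
    (by positivity)).trans (le_of_eq ?_)
  rw [Real.mul_rpow (by positivity) hS0, ← Real.rpow_mul hC0, mul_one_div_cancel hp0.ne',
    Real.rpow_one]

end

/-- Spaces with the inequality `RadOne` are good targets. -/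
theorem goodTarget_of_radClass (Z : Type u) [NormedAddCommGroup Z] [NormedSpace ℝ Z]
    (h : RadClass Z) : GoodTarget Z := by
  intro X _ _ _ r hX J
  obtain ⟨θ, D, hθ0, hθ1, hD0, hZ⟩ := h
  obtain ⟨hr, C, hC⟩ := hX
  have hr1 : 0 < r - 1 + θ := by linarith
  set p : ℝ := (1 + r / (r - 1 + θ)) / 2 with hp
  have h1 : 1 < r / (r - 1 + θ) := by rw [lt_div_iff₀ hr1]; linarith
  have h2 : r / (r - 1 + θ) ≤ 2 := by rw [div_le_iff₀ hr1]; linarith
  have hp1 : 1 < p := by rw [hp]; linarith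
  have hp2 : p ≤ 2 := by rw [hp]; linarith
  have hpr : p * (r - 1 + θ) < r := by
    have : p * (r - 1 + θ) = ((r - 1 + θ) + r) / 2 := by
      rw [hp]
      field_simp
    rw [this]
    linarith
  obtain ⟨K, hK⟩ := (Vale.Agent.P111.R2.H351.uniform_form.{u, u} hr C).2 θ D p hθ0 hθ1
    (by linarith) hpr
  exact ⟨p, K * ‖J‖, hp1, hp2, fun n x => (hK X Z (Or.inr hZ)).1 hC J n x⟩

theorem GoodTarget.of_embed {Z Z' : Type u} [NormedAddCommGroup Z] [NormedSpace ℝ Z]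
    [NormedAddCommGroup Z'] [NormedSpace ℝ Z'] (h : GoodTarget Z) (T : Z' →L[ℝ] Z) {D : ℝ}
    (hT : ∀ z, ‖z‖ ≤ D * ‖T z‖) : GoodTarget Z' := by
  intro X _ _ _ r hX J
  exact opHasType_of_embed T hT (h X r hX (T.comp J))

section

variable {Z Q : Type u} [NormedAddCommGroup Z] [NormedSpace ℝ Z] [CompleteSpace Z]
  [NormedAddCommGroup Q] [NormedSpace ℝ Q] [CompleteSpace Q]

theorem GoodTarget.extension (q : Z →L[ℝ] Q) (hq : Function.Surjective q) {s : ℝ}
    (hs : HasType s (LinearMap.ker (q : Z →ₗ[ℝ] Q))) (h : GoodTarget Q) : GoodTarget Z := by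
  intro X _ _ _ r hX J
  exact opHasType_of_ker q hq hs J (h X r hX (q.comp J))

theorem GoodTarget.quotient (q : Z →L[ℝ] Q) (hq : Function.Surjective q) {s : ℝ}
    (hs : HasType s (LinearMap.ker (q : Z →ₗ[ℝ] Q))) (h : GoodTarget Z) : GoodTarget Q := by
  intro X _ _ _ r hX J
  -- the pull-back
  let Φ : X × Z →L[ℝ] Q :=
    J.comp (ContinuousLinearMap.fst ℝ X Z) - q.comp (ContinuousLinearMap.snd ℝ X Z)
  have hΦ : ∀ w : X × Z, Φ w = J w.1 - q w.2 := fun w => rfl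
  let W : Submodule ℝ (X × Z) := LinearMap.ker (Φ : X × Z →ₗ[ℝ] Q)
  have hWmem : ∀ w : X × Z, w ∈ W ↔ J w.1 = q w.2 := by
    intro w
    show Φ w = 0 ↔ _
    rw [hΦ, sub_eq_zero]
  have hWclosed : IsClosed (W : Set (X × Z)) := by
    have : (W : Set (X × Z)) = Φ ⁻¹' {0} := by
      ext w
      rfl
    rw [this]
    exact IsClosed.preimage Φ.continuous isClosed_singleton
  have : CompleteSpace W := hWclosed.completeSpace_coe
  let π₁ : W →L[ℝ] X := (ContinuousLinearMap.fst ℝ X Z).comp W.subtypeL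
  let π₂ : W →L[ℝ] Z := (ContinuousLinearMap.snd ℝ X Z).comp W.subtypeL
  have hπ : Function.Surjective π₁ := by
    intro x
    obtain ⟨z, hz⟩ := hq (J x)
    exact ⟨⟨(x, z), (hWmem _).2 hz.symm⟩, rfl⟩
  -- the kernel
  have hk : ∀ w : LinearMap.ker (π₁ : W →ₗ[ℝ] X), ((w : W) : X × Z).1 = 0 := fun w => w.2
  have hker : HasType s (LinearMap.ker (π₁ : W →ₗ[ℝ] X)) := by
    let T : LinearMap.ker (π₁ : W →ₗ[ℝ] X) →ₗ[ℝ] LinearMap.ker (q : Z →ₗ[ℝ] Q) :=
      { toFun := fun w => ⟨((w : W) : X × Z).2, by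
          have h1 := (hWmem _).1 (w : W).2
          rw [hk w, map_zero] at h1
          exact h1.symm⟩
        map_add' := fun w w' => rfl
        map_smul' := fun c w => rfl }
    refine hasType_of_isometry T (fun w => ?_) hs
    have h1 : ‖T w‖ = ‖((w : W) : X × Z).2‖ := rfl
    have h2 : ‖w‖ = ‖((w : W) : X × Z)‖ := rfl
    rw [h1, h2, Prod.norm_def, hk w, norm_zero, max_eq_right (norm_nonneg _)]
  obtain ⟨r', hW⟩ := dual_cotype_of_surjective π₁ hπ hker hX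
  have h1 : OpHasType π₂ := h W r' hW π₂
  have h2 : OpHasType (q.comp π₂) := OpHasType.comp_left h1 q
  have h3 : J.comp π₁ = q.comp π₂ := by
    ext w
    exact (hWmem _).1 w.2
  obtain ⟨C, hC0, hC⟩ := π₁.exists_preimage_norm_le hπ
  exact opHasType_of_surjective π₁ J hC0.le hC (by rw [h3]; exact h2)

theorem goodTarget_iff (q : Z →L[ℝ] Q) (hq : Function.Surjective q) {s : ℝ}
    (hs : HasType s (LinearMap.ker (q : Z →ₗ[ℝ] Q))) : GoodTarget Z ↔ GoodTarget Q :=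
  ⟨fun h => GoodTarget.quotient q hq hs h, fun h => GoodTarget.extension q hq hs h⟩

end

/-- For spaces whose dual has finite cotype, type greater than one means being a good target. -/
theorem hasType_iff {X : Type u} [NormedAddCommGroup X] [NormedSpace ℝ X] [CompleteSpace X]
    {r : ℝ} (hX : HasCotype r (X →L[ℝ] ℝ)) : (∃ p, HasType p X) ↔ GoodTarget X := by
  constructor
  · rintro ⟨p, h⟩
    exact goodTarget_of_radClass X (Vale.Agent.P111.R2.H351.radClass_of_type h)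
  · intro h
    exact opHasType_id_iff.1 (h X r hX (ContinuousLinearMap.id ℝ X))

/-- Cotype passes to subspaces. -/
theorem hasCotype_of_embed {E F : Type*} [NormedAddCommGroup E] [NormedSpace ℝ E]
    [NormedAddCommGroup F] [NormedSpace ℝ F] {r : ℝ} (T : E →L[ℝ] F) {D : ℝ}
    (hT : ∀ e, ‖e‖ ≤ D * ‖T e‖) (h : HasCotype r F) : HasCotype r E := by
  obtain ⟨hr, C, hC⟩ := h
  have hr0 : 0 < r := by linarith
  refine ⟨hr, |D| * (|C| * ‖T‖), fun n y => ?_⟩
  have h1 : (∑ i, ‖y i‖ ^ r) ^ (1 / r) ≤ |D| * (∑ i, ‖T (y i)‖ ^ r) ^ (1 / r) := by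
    have a1 : ∑ i, ‖y i‖ ^ r ≤ |D| ^ r * ∑ i, ‖T (y i)‖ ^ r := by
      rw [Finset.mul_sum]
      refine Finset.sum_le_sum fun i _ => ?_
      rw [← Real.mul_rpow (abs_nonneg D) (norm_nonneg _)]
      exact Real.rpow_le_rpow (norm_nonneg _)
        ((hT _).trans (mul_le_mul_of_nonneg_right (le_abs_self D) (norm_nonneg _))) hr0.le
    refine (Real.rpow_le_rpow (Finset.sum_nonneg fun _ _ => by positivity) a1
      (by positivity)).trans (le_of_eq ?_)
    rw [Real.mul_rpow (by positivity) (Finset.sum_nonneg fun _ _ => by positivity),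
      ← Real.rpow_mul (abs_nonneg D), mul_one_div_cancel hr0.ne', Real.rpow_one]
  have h2 : (∑ i, ‖T (y i)‖ ^ r) ^ (1 / r) ≤ |C| * rsq (fun i => T (y i)) ^ (1 / 2 : ℝ) :=
    (hC n fun i => T (y i)).trans (mul_le_mul_of_nonneg_right (le_abs_self C)
      (Real.rpow_nonneg (rsq_nonneg _) _))
  have h3 : rsq (fun i => T (y i)) ≤ ‖T‖ ^ 2 * rsq y := by
    refine rsq_map_le (fun y => T y) (fun c z => ?_) _
    have : ∑ i, c i • T (z i) = T (∑ i, c i • z i) := by simp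
    rw [this]
    exact T.le_opNorm _
  have h4 : rsq (fun i => T (y i)) ^ (1 / 2 : ℝ) ≤ ‖T‖ * rsq y ^ (1 / 2 : ℝ) := by
    have := Real.rpow_le_rpow (rsq_nonneg _) h3 (show (0:ℝ) ≤ 1 / 2 by norm_num)
    rwa [Real.mul_rpow (by positivity) (rsq_nonneg _), sq_rpow_half (norm_nonneg _)] at this
  calc (∑ i, ‖y i‖ ^ r) ^ (1 / r) ≤ |D| * (∑ i, ‖T (y i)‖ ^ r) ^ (1 / r) := h1
    _ ≤ |D| * (|C| * (‖T‖ * rsq y ^ (1 / 2 : ℝ))) := by
      refine mul_le_mul_of_nonneg_left (h2.trans ?_) (abs_nonneg D)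
      exact mul_le_mul_of_nonneg_left h4 (abs_nonneg C)
    _ = _ := by
      unfold rsq
      ring

/-- Quotients by, and extensions by, a subspace of type greater than one: finite cotype of the
dual and type greater than one. -/
theorem three_space_iff {W X : Type u} [NormedAddCommGroup W] [NormedSpace ℝ W] [CompleteSpace W]
    [NormedAddCommGroup X] [NormedSpace ℝ X] [CompleteSpace X] (π : W →L[ℝ] X)
    (hπ : Function.Surjective π) {s : ℝ}
    (hs : HasType s (LinearMap.ker (π : W →ₗ[ℝ] X))) :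
    ((∃ r, HasCotype r (W →L[ℝ] ℝ)) ↔ ∃ r, HasCotype r (X →L[ℝ] ℝ)) ∧
      ((∃ p, HasType p W) ↔ ∃ p, HasType p X) := by
  obtain ⟨C, hC0, hC⟩ := π.exists_preimage_norm_le hπ
  refine ⟨⟨?_, ?_⟩, ⟨?_, ?_⟩⟩
  · rintro ⟨r, h⟩
    refine ⟨r, hasCotype_of_embed ((ContinuousLinearMap.compL ℝ W X ℝ).flip π) (D := C)
      (fun g => ?_) h⟩
    refine ContinuousLinearMap.opNorm_le_bound _ (by positivity) fun x => ?_
    obtain ⟨w, hw, hwn⟩ := hC x
    have e1 : g x = (ContinuousLinearMap.compL ℝ W X ℝ).flip π g w := by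
      rw [← hw]; rfl
    rw [e1]
    calc _ ≤ ‖(ContinuousLinearMap.compL ℝ W X ℝ).flip π g‖ * ‖w‖ :=
          ContinuousLinearMap.le_opNorm _ _
      _ ≤ ‖(ContinuousLinearMap.compL ℝ W X ℝ).flip π g‖ * (C * ‖x‖) := by gcongr
      _ = _ := by ring
  · rintro ⟨r, h⟩
    exact dual_cotype_of_surjective π hπ hs h
  · intro h
    have h1 : OpHasType (ContinuousLinearMap.id ℝ W) := opHasType_id_iff.2 h
    have h2 : OpHasType (π.comp (ContinuousLinearMap.id ℝ W)) := OpHasType.comp_left h1 π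
    refine opHasType_id_iff.1 (opHasType_of_surjective π (ContinuousLinearMap.id ℝ X) hC0.le hC ?_)
    exact h2
  · intro h
    refine opHasType_id_iff.1 (opHasType_of_ker π hπ hs (ContinuousLinearMap.id ℝ W) ?_)
    obtain ⟨p, hp1, hp2, D, hD⟩ := h
    refine ⟨p, |D| * ‖π‖, hp1, hp2, fun n w => ?_⟩
    have hp0 : 0 < p := by linarith
    refine (hD n fun i => π (w i)).trans ?_
    refine (mul_le_mul_of_nonneg_right (le_abs_self D) (by positivity)).trans ?_
    rw [mul_assoc]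
    refine mul_le_mul_of_nonneg_left ?_ (abs_nonneg D)
    have hS0 : 0 ≤ ∑ i, ‖w i‖ ^ p := Finset.sum_nonneg fun _ _ => by positivity
    have h2 : ∑ i, ‖π (w i)‖ ^ p ≤ ‖π‖ ^ p * ∑ i, ‖w i‖ ^ p := by
      rw [Finset.mul_sum]
      refine Finset.sum_le_sum fun i _ => ?_
      rw [← Real.mul_rpow (norm_nonneg _) (norm_nonneg _)]
      exact Real.rpow_le_rpow (norm_nonneg _) (π.le_opNorm _) hp0.le
    refine (Real.rpow_le_rpow (Finset.sum_nonneg fun _ _ => by positivity) h2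
      (by positivity)).trans (le_of_eq ?_)
    rw [Real.mul_rpow (by positivity) hS0, ← Real.rpow_mul (norm_nonneg _),
      mul_one_div_cancel hp0.ne', Real.rpow_one]

/-- Lifting implies cotype of the dual. -/
theorem cotype_dual_of_lift {X : Type*} [NormedAddCommGroup X] [NormedSpace ℝ X] {r C : ℝ}
    (hr : 2 ≤ r) (hC : 0 ≤ C) (h : LiftWith r.conjExponent C X) : HasCotype r (X →L[ℝ] ℝ) := by
  have hr0 : 0 < r := by linarith
  have hr1 : 0 < r - 1 := by linarith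
  set s : ℝ := r.conjExponent with hs
  have hse : s = r / (r - 1) := rfl
  have hs0 : 0 < s := by rw [hse]; positivity
  have hrs : (r - 1) * s = r := by rw [hse]; field_simp
  have h1r : 1 - 1 / s = 1 / r := by rw [hse]; field_simp; ring
  refine ⟨hr, 2 * C, fun n ψ => ?_⟩
  set S : ℝ := ∑ i, ‖ψ i‖ ^ r with hS
  have hS0 : 0 ≤ S := Finset.sum_nonneg fun i _ => by positivity
  rcases hS0.eq_or_lt with h0 | hpos
  · rw [← h0, Real.zero_rpow (by positivity)]
    exact mul_nonneg (by positivity) (Real.rpow_nonneg (rsq_nonneg ψ) _)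
  choose u hu1 hu2 using fun i => exists_half_norming (ψ i)
  set x : Fin n → X := fun i => ‖ψ i‖ ^ (r - 1) • u i with hx
  have h1 : S / 2 ≤ ∑ i, ψ i (x i) := by
    rw [hS, Finset.sum_div]
    refine Finset.sum_le_sum fun i _ => ?_
    rw [hx, map_smul, smul_eq_mul]
    have e : ‖ψ i‖ ^ r / 2 = ‖ψ i‖ ^ (r - 1) * (‖ψ i‖ / 2) := by
      rcases (norm_nonneg (ψ i)).eq_or_lt with h0 | h0
      · rw [← h0, Real.zero_rpow hr0.ne']; simp
      · rw [Real.rpow_sub_one h0.ne']; field_simp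
    rw [e]
    exact mul_le_mul_of_nonneg_left (hu2 i) (by positivity)
  have h2 : ∑ i, ‖x i‖ ^ s ≤ S := by
    refine Finset.sum_le_sum fun i _ => ?_
    rw [hx, norm_smul, Real.norm_of_nonneg (by positivity)]
    have e : ‖ψ i‖ ^ r = (‖ψ i‖ ^ (r - 1)) ^ s := by
      rw [← Real.rpow_mul (norm_nonneg _), hrs]
    rw [e]
    refine Real.rpow_le_rpow (by positivity) ?_ hs0.le
    exact mul_le_of_le_one_right (by positivity) (hu1 i)
  have h3 : C * (∑ i, ‖x i‖ ^ s) ^ (1 / s) ≤ C * S ^ (1 / s) :=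
    mul_le_mul_of_nonneg_left (Real.rpow_le_rpow (Finset.sum_nonneg fun _ _ => by positivity) h2
      (by positivity)) hC
  have h6 : S ^ (1 / r) * S ^ (1 / s) = S := by
    rw [← Real.rpow_add hpos, ← h1r]
    simp
  have h7 : 0 < S ^ (1 / s) := by positivity
  set R : ℝ := rsq ψ ^ (1 / 2 : ℝ) with hR
  have hR0 : 0 ≤ R := Real.rpow_nonneg (rsq_nonneg ψ) _
  have h8 : ∀ δ : ℝ, 0 < δ → S ≤ 2 * (R * (C * S ^ (1 / s) + δ)) := by
    intro δ hδ
    obtain ⟨g, hg1, hg2⟩ := h n x (C * S ^ (1 / s) + δ) (by linarith)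
    have a1 := Vale.Agent.P111.R2.H351.pairing ψ g
    simp only [hg1] at a1
    have a2 : (avg fun ε => (∑ i, sg (ε i) • ψ i) (g ε)) ≤ R * nrm2 g := by
      have a3 : (avg fun ε => (∑ i, sg (ε i) • ψ i) (g ε)) ≤
          avg fun ε => ‖∑ i, sg (ε i) • ψ i‖ * ‖g ε‖ :=
        avg_mono fun ε => (le_abs_self _).trans (by
          rw [← Real.norm_eq_abs]; exact ContinuousLinearMap.le_opNorm _ _)
      refine a3.trans ?_
      rw [hR, nrm2, ← Real.sqrt_eq_rpow, ← Real.sqrt_eq_rpow, ← Real.sqrt_mul (rsq_nonneg ψ)]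
      refine Real.le_sqrt_of_sq_le ?_
      exact avg_mul_sq_le _ _
    have a4 : R * nrm2 g ≤ R * (C * S ^ (1 / s) + δ) := mul_le_mul_of_nonneg_left hg2 hR0
    linarith
  have h9 : S ≤ 2 * C * R * S ^ (1 / s) := by
    refine le_of_forall_pos_le_add fun δ hδ => ?_
    have a1 := h8 (δ / (2 * (R + 1))) (by positivity)
    have a2 : 2 * (R * (δ / (2 * (R + 1)))) ≤ δ := by
      have : 2 * (R * (δ / (2 * (R + 1)))) = δ * (R / (R + 1)) := by
        field_simp
      rw [this]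
      have h3 : R / (R + 1) ≤ 1 := by
        rw [div_le_one (by linarith)]; linarith
      nlinarith
    nlinarith
  have h10 : S ^ (1 / r) * S ^ (1 / s) ≤ 2 * C * R * S ^ (1 / s) := by
    rw [h6]; exact h9
  exact le_of_mul_le_mul_right h10 h7

/-- Finite cotype passes to the bidual. -/
theorem cotype_bidual {X : Type u} [NormedAddCommGroup X] [NormedSpace ℝ X] {r : ℝ}
    (h : HasCotype r X) : HasCotype r ((X →L[ℝ] ℝ) →L[ℝ] ℝ) := by
  obtain ⟨hr, C, hC⟩ := h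
  exact cotype_dual_of_lift hr (le_max_right C 0)
    (Vale.Agent.P111.R2.H351.lift_of_cotype_predual hr X hC)

end Vale.Agent.P111.R2.H560.TS
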